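import Mathlib

/-!
# Permutations acting on edge sets

The counting function `cnt F U` is the number of permutations of the vertex type moving the edge
set `U` into the edge set `F`.
-/

set_option linter.unusedSectionVars false
set_option linter.unusedVariables false
set_option linter.unusedDecidableInType false
set_option linter.unusedFintypeInType false

open Finset
open scoped Classical Nat

namespace Vale.Agent.P064L

noncomputable section

variable {X : Type*} [Fintype X]

/-- The image of an edge set under a permutation of the vertices. -/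
def act (σ : Equiv.Perm X) (U : Finset (Sym2 X)) : Finset (Sym2 X) := U.image (Sym2.map σ)

lemma mem_act {σ : Equiv.Perm X} {U : Finset (Sym2 X)} {e : Sym2 X} :
    e ∈ act σ U ↔ ∃ e' ∈ U, Sym2.map σ e' = e := by simp [act]

lemma map_inj (σ : Equiv.Perm X) : Function.Injective (Sym2.map σ) :=
  Sym2.map.injective σ.injective

lemma map_mem_act {σ : Equiv.Perm X} {U : Finset (Sym2 X)} {e : Sym2 X} :
    Sym2.map σ e ∈ act σ U ↔ e ∈ U := by
  rw [mem_act]
  constructor
  · rintro ⟨e', he', h⟩
    rwa [← map_inj σ h]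
  · intro h
    exact ⟨e, h, rfl⟩

lemma act_one (U : Finset (Sym2 X)) : act 1 U = U := by
  ext e
  rw [mem_act]
  constructor
  · rintro ⟨e', he', rfl⟩
    have : Sym2.map (⇑(1 : Equiv.Perm X)) e' = e' := by
      induction e' using Sym2.ind with
      | _ a b => simp
    rwa [this]
  · intro h
    refine ⟨e, h, ?_⟩
    induction e using Sym2.ind with
    | _ a b => simp

lemma act_mul (σ τ : Equiv.Perm X) (U : Finset (Sym2 X)) : act (σ * τ) U = act σ (act τ U) := by
  ext e
  simp only [mem_act]
  constructor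
  · rintro ⟨e', he', rfl⟩
    refine ⟨Sym2.map τ e', ⟨e', he', rfl⟩, ?_⟩
    induction e' using Sym2.ind with
    | _ a b => simp
  · rintro ⟨_, ⟨e', he', rfl⟩, rfl⟩
    refine ⟨e', he', ?_⟩
    induction e' using Sym2.ind with
    | _ a b => simp

lemma card_act (σ : Equiv.Perm X) (U : Finset (Sym2 X)) : (act σ U).card = U.card :=
  Finset.card_image_of_injective _ (map_inj σ)

lemma act_union (σ : Equiv.Perm X) (U U' : Finset (Sym2 X)) :
    act σ (U ∪ U') = act σ U ∪ act σ U' := by
  simp [act, Finset.image_union]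

lemma act_inter (σ : Equiv.Perm X) (U U' : Finset (Sym2 X)) :
    act σ (U ∩ U') = act σ U ∩ act σ U' :=
  Finset.image_inter _ _ (map_inj σ)

lemma act_subset_act (σ : Equiv.Perm X) {U U' : Finset (Sym2 X)} (h : U ⊆ U') :
    act σ U ⊆ act σ U' := Finset.image_subset_image h

lemma act_empty (σ : Equiv.Perm X) : act σ (∅ : Finset (Sym2 X)) = ∅ := by simp [act]

/-- The number of permutations moving `U` into `F`. -/
def cnt (F U : Finset (Sym2 X)) : ℕ := (univ.filter fun σ : Equiv.Perm X => act σ U ⊆ F).card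

lemma cnt_le (F U : Finset (Sym2 X)) : cnt F U ≤ (Fintype.card X)! := by
  unfold cnt
  calc _ ≤ (univ : Finset (Equiv.Perm X)).card := Finset.card_le_card (Finset.filter_subset _ _)
    _ = _ := by rw [Finset.card_univ, Fintype.card_perm]

lemma cnt_anti (F : Finset (Sym2 X)) {U U' : Finset (Sym2 X)} (h : U ⊆ U') : cnt F U' ≤ cnt F U := by
  unfold cnt
  apply Finset.card_le_card
  intro σ hσ
  simp only [mem_filter, mem_univ, true_and] at hσ ⊢
  exact (act_subset_act σ h).trans hσ

lemma cnt_mono {F F' : Finset (Sym2 X)} (h : F ⊆ F') (U : Finset (Sym2 X)) : cnt F U ≤ cnt F' U := by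
  unfold cnt
  apply Finset.card_le_card
  intro σ hσ
  simp only [mem_filter, mem_univ, true_and] at hσ ⊢
  exact hσ.trans h

lemma cnt_act (F U : Finset (Sym2 X)) (τ : Equiv.Perm X) : cnt F (act τ U) = cnt F U := by
  unfold cnt
  refine Finset.card_bij (fun σ _ => σ * τ) ?_ ?_ ?_
  · intro σ hσ
    simp only [mem_filter, mem_univ, true_and] at hσ ⊢
    rwa [act_mul]
  · intro a _ b _ h
    exact mul_right_cancel h
  · intro σ hσ
    simp only [mem_filter, mem_univ, true_and] at hσ
    refine ⟨σ * τ⁻¹, ?_, by simp⟩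
    simp only [mem_filter, mem_univ, true_and]
    rw [← act_mul]
    simpa using hσ

lemma cnt_empty (F : Finset (Sym2 X)) : cnt F ∅ = (Fintype.card X)! := by
  unfold cnt
  rw [Finset.filter_true_of_mem, Finset.card_univ, Fintype.card_perm]
  intro σ _
  rw [act_empty]
  exact Finset.empty_subset _

/-- Translating the count by a fixed permutation. -/
lemma card_filter_mul_left (P : Equiv.Perm X → Prop) [DecidablePred P]
    (σ : Equiv.Perm X) [DecidablePred fun τ : Equiv.Perm X => P (σ * τ)] :
    (univ.filter fun τ : Equiv.Perm X => P (σ * τ)).card = (univ.filter P).card := by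
  refine Finset.card_bij (fun τ _ => σ * τ) ?_ ?_ ?_
  · intro τ h
    simpa using h
  · intro a _ b _ h
    exact mul_left_cancel h
  · intro τ hτ
    refine ⟨σ⁻¹ * τ, ?_, by simp⟩
    simpa using hτ

/-- The second moment identity. -/
lemma cnt_sq (H F : Finset (Sym2 X)) :
    (cnt H F) ^ 2 = ∑ τ : Equiv.Perm X, cnt H (F ∪ act τ F) := by
  have h1 : ∀ τ : Equiv.Perm X, cnt H (F ∪ act τ F) =
      ∑ σ : Equiv.Perm X, if act σ F ⊆ H ∧ act (σ * τ) F ⊆ H then 1 else 0 := by
    intro τ
    unfold cnt
    rw [Finset.card_filter]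
    refine Finset.sum_congr rfl fun σ _ => ?_
    have : act σ (F ∪ act τ F) ⊆ H ↔ act σ F ⊆ H ∧ act (σ * τ) F ⊆ H := by
      rw [act_union, Finset.union_subset_iff, act_mul]
    simp only [this]
  simp_rw [h1]
  rw [Finset.sum_comm]
  have h2 : ∀ σ : Equiv.Perm X, (∑ τ : Equiv.Perm X, if act σ F ⊆ H ∧ act (σ * τ) F ⊆ H then 1 else 0)
      = if act σ F ⊆ H then cnt H F else 0 := by
    intro σ
    by_cases h : act σ F ⊆ H
    · simp only [h, true_and, if_true]
      rw [← Finset.card_filter]
      exact card_filter_mul_left (fun σ' => act σ' F ⊆ H) σ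
    · simp [h]
  simp_rw [h2]
  rw [Finset.sum_ite, Finset.sum_const, Finset.sum_const_zero, add_zero, smul_eq_mul, sq]
  rfl

/-! ### Orbits -/

/-- The orbit of an edge set under the vertex permutations. -/
def orb (Z : Finset (Sym2 X)) : Finset (Finset (Sym2 X)) :=
  (univ : Finset (Equiv.Perm X)).image fun σ => act σ Z

lemma mem_orb {Z Z' : Finset (Sym2 X)} : Z' ∈ orb Z ↔ ∃ σ : Equiv.Perm X, act σ Z = Z' := by
  simp [orb]

lemma card_fiber_eq (Z Z' : Finset (Sym2 X)) (h : Z' ∈ orb Z) :
    (univ.filter fun σ : Equiv.Perm X => act σ Z = Z').card =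
      (univ.filter fun σ : Equiv.Perm X => act σ Z = Z).card := by
  obtain ⟨σ₀, rfl⟩ := mem_orb.mp h
  refine Finset.card_bij (fun σ _ => σ₀⁻¹ * σ) ?_ ?_ ?_
  · intro σ hσ
    simp only [mem_filter, mem_univ, true_and] at hσ ⊢
    rw [act_mul, hσ, ← act_mul]
    simp [act_one]
  · intro a _ b _ h
    exact mul_left_cancel h
  · intro τ hτ
    simp only [mem_filter, mem_univ, true_and] at hτ
    refine ⟨σ₀ * τ, ?_, by simp⟩
    simp only [mem_filter, mem_univ, true_and]
    rw [act_mul, hτ]

/-- The size of the stabiliser. -/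
def stab (Z : Finset (Sym2 X)) : ℕ := (univ.filter fun σ : Equiv.Perm X => act σ Z = Z).card

lemma card_orb_mul_stab (Z : Finset (Sym2 X)) : (orb Z).card * stab Z = (Fintype.card X)! := by
  have h : (univ : Finset (Equiv.Perm X)).card =
      ∑ Z' ∈ orb Z, (univ.filter fun σ : Equiv.Perm X => act σ Z = Z').card :=
    Finset.card_eq_sum_card_fiberwise (fun σ _ => by simp [orb])
  rw [Finset.card_univ, Fintype.card_perm] at h
  rw [h, Finset.sum_congr rfl (fun Z' hZ' => card_fiber_eq Z Z' hZ'), Finset.sum_const, smul_eq_mul]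
  rfl

/-- The number of permutations moving `Z` into `F`, in terms of the orbit. -/
lemma cnt_eq (F Z : Finset (Sym2 X)) :
    cnt F Z = ((orb Z).filter (· ⊆ F)).card * stab Z := by
  unfold cnt
  have h : (univ.filter fun σ : Equiv.Perm X => act σ Z ⊆ F).card =
      ∑ Z' ∈ (orb Z).filter (· ⊆ F),
        ((univ.filter fun σ : Equiv.Perm X => act σ Z ⊆ F).filter fun σ => act σ Z = Z').card :=
    Finset.card_eq_sum_card_fiberwise (fun σ hσ => by
      simp only [coe_filter, mem_univ, true_and, Set.mem_ofPred_eq] at hσ ⊢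
      exact ⟨mem_orb.mpr ⟨σ, rfl⟩, hσ⟩)
  rw [h, Finset.sum_congr rfl (g := fun _ => stab Z), Finset.sum_const, smul_eq_mul]
  intro Z' hZ'
  rw [Finset.mem_filter] at hZ'
  unfold stab
  rw [← card_fiber_eq Z Z' hZ'.1]
  congr 1
  ext σ
  simp only [mem_filter, mem_univ, true_and]
  constructor
  · exact fun h => h.2
  · intro h
    exact ⟨h ▸ hZ'.2, h⟩

/-- The fraction of permutations moving `Z` into `F`. -/
lemma cnt_div_eq (F Z : Finset (Sym2 X)) :
    (cnt F Z : ℝ) / ((Fintype.card X)! : ℝ) =
      (((orb Z).filter (· ⊆ F)).card : ℝ) / ((orb Z).card : ℝ) := by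
  have h1 := card_orb_mul_stab Z
  have h2 := cnt_eq F Z
  have h3 : stab Z ≠ 0 := by
    intro h
    rw [h, mul_zero] at h1
    exact (Nat.factorial_ne_zero _) h1.symm
  have h4 : (orb Z).card ≠ 0 := by
    intro h
    rw [h, zero_mul] at h1
    exact (Nat.factorial_ne_zero _) h1.symm
  have h5 : (stab Z : ℝ) ≠ 0 := by exact_mod_cast h3
  have h6 : ((orb Z).card : ℝ) ≠ 0 := by exact_mod_cast h4
  rw [h2, ← h1]
  push_cast
  field_simp

lemma card_mem_orb {Z Z' : Finset (Sym2 X)} (h : Z' ∈ orb Z) : Z'.card = Z.card := by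
  obtain ⟨σ, rfl⟩ := mem_orb.mp h
  exact card_act σ Z

end

end Vale.Agent.P064L
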