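import Vale.Agent.P064L.Phi2

/-!
# Consequences of the counting hypothesis: codegrees and degeneracy
-/

set_option linter.unusedSectionVars false
set_option linter.unusedVariables false
set_option linter.unusedDecidableInType false
set_option linter.unusedFintypeInType false

open Finset
open scoped Classical Nat

namespace Vale.Agent.P064L

noncomputable section

variable {X : Type*} [Fintype X]

/-- The orbit of `Z` has at most `N ^ |supp Z|` elements. -/
lemma card_orb_le_pow (Z : Finset (Sym2 X)) :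
    (orb Z).card ≤ (Fintype.card X) ^ (supp Z).card := by
  let ext : (↥(supp Z) → X) → X → X := fun g x => if h : x ∈ supp Z then g ⟨x, h⟩ else x
  let Θ : (↥(supp Z) → X) → Finset (Sym2 X) := fun g => Z.image (Sym2.map (ext g))
  have hsub : orb Z ⊆ (univ : Finset (↥(supp Z) → X)).image Θ := by
    intro Z' hZ'
    obtain ⟨σ, rfl⟩ := mem_orb.mp hZ'
    refine Finset.mem_image.mpr ⟨fun x => σ x, Finset.mem_univ _, ?_⟩
    apply Finset.image_congr
    intro e he
    apply map_congr_mem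
    intro x hx
    have hxs : x ∈ supp Z := mem_supp.mpr ⟨e, he, hx⟩
    simp [ext, hxs]
  refine (Finset.card_le_card hsub).trans (Finset.card_image_le.trans ?_)
  rw [Finset.card_univ, Fintype.card_fun, Fintype.card_coe]

/-- The complete bipartite edge set. -/
def biclique (C B : Finset X) : Finset (Sym2 X) := (C ×ˢ B).image fun p => s(p.1, p.2)

lemma act_biclique (σ : Equiv.Perm X) (C B : Finset X) :
    act σ (biclique C B) = biclique (C.image σ) (B.image σ) := by
  ext e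
  simp only [act, biclique, mem_image, mem_product, Prod.exists]
  constructor
  · rintro ⟨_, ⟨a, b, ⟨ha, hb⟩, rfl⟩, rfl⟩
    exact ⟨σ a, σ b, ⟨⟨a, ha, rfl⟩, ⟨b, hb, rfl⟩⟩, by simp⟩
  · rintro ⟨_, _, ⟨⟨a, ha, rfl⟩, ⟨b, hb, rfl⟩⟩, rfl⟩
    exact ⟨s(a, b), ⟨a, b, ⟨ha, hb⟩, rfl⟩, by simp⟩

lemma card_orb_biclique (C B : Finset X) :
    (orb (biclique C B)).card ≤
      (Fintype.card X).choose C.card * (Fintype.card X).choose B.card := by
  have hsub : orb (biclique C B) ⊆
      (Finset.powersetCard C.card univ ×ˢ Finset.powersetCard B.card univ).image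
        (fun p : Finset X × Finset X => biclique p.1 p.2) := by
    intro Z' hZ'
    obtain ⟨σ, rfl⟩ := mem_orb.mp hZ'
    rw [act_biclique]
    refine Finset.mem_image.mpr ⟨(C.image σ, B.image σ), Finset.mem_product.mpr ⟨?_, ?_⟩, rfl⟩
    · exact Finset.mem_powersetCard.mpr ⟨Finset.subset_univ _,
        Finset.card_image_of_injective _ σ.injective⟩
    · exact Finset.mem_powersetCard.mpr ⟨Finset.subset_univ _,
        Finset.card_image_of_injective _ σ.injective⟩
  refine (Finset.card_le_card hsub).trans (Finset.card_image_le.trans ?_)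
  rw [Finset.card_product, Finset.card_powersetCard, Finset.card_powersetCard, Finset.card_univ]

lemma card_biclique {C B : Finset X} (h : Disjoint C B) :
    (biclique C B).card = C.card * B.card := by
  unfold biclique
  rw [Finset.card_image_of_injOn, Finset.card_product]
  rintro ⟨a, b⟩ h1 ⟨a', b'⟩ h2 h3
  simp only [Finset.coe_product, Set.mem_prod, Finset.mem_coe] at h1 h2
  have h4 : s(a, b) = s(a', b') := h3
  rcases Sym2.eq_iff.mp h4 with ⟨rfl, rfl⟩ | ⟨rfl, rfl⟩
  · rfl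
  · exact absurd h2.2 (Finset.disjoint_left.mp h h1.1)

/-- Scaling a power divided by a factorial. -/
lemma pow_div_fact_le {y : ℝ} (hy : 0 ≤ y) {c : ℕ} (hc : 0 < c) :
    y ^ c / (c ! : ℝ) ≤ (Real.exp 1 * y / c) ^ c := by
  have hc' : (0 : ℝ) < c := by exact_mod_cast hc
  have h1 := Real.pow_div_factorial_le_exp (x := (c : ℝ)) hc'.le c
  have h2 : Real.exp (c : ℝ) = Real.exp 1 ^ c := by
    rw [← Real.exp_nat_mul]; simp
  rw [h2] at h1
  have hf : (0 : ℝ) < (c ! : ℝ) := by exact_mod_cast Nat.factorial_pos c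
  have h3 : (Real.exp 1 * y / c) ^ c = (y / c) ^ c * Real.exp 1 ^ c := by
    rw [← mul_pow]; congr 1; field_simp
  rw [h3]
  have h4 : y ^ c / (c ! : ℝ) = (y / c) ^ c * ((c : ℝ) ^ c / (c ! : ℝ)) := by
    rw [div_pow]; field_simp
  rw [h4]
  exact mul_le_mul_of_nonneg_left h1 (by positivity)

/-- **The codegree bound.** -/
theorem cod_bound {H : Finset (Sym2 X)} {q : ℝ} (hyp : Hyp1 H q) (hq : 0 < q) (hq1 : q ≤ 1)
    (hH : NoLoop H) (B : Finset X) (hX : 0 < Fintype.card X) :
    ((cn H B).card : ℝ) ≤ max (Real.exp 2 * (Fintype.card X) * q ^ B.card)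
      (1 + B.card * (1 + Real.log (Fintype.card X))) := by
  by_contra hcon
  rw [not_le, max_lt_iff] at hcon
  obtain ⟨h1, h2⟩ := hcon
  set N : ℝ := (Fintype.card X : ℝ) with hN
  have hN1 : (1 : ℝ) ≤ N := by rw [hN]; exact_mod_cast hX
  have hN0 : 0 < N := by linarith
  set b := B.card with hb
  set C := cn H B with hC
  set c := C.card with hc
  have hlog : 0 ≤ Real.log N := Real.log_nonneg hN1
  have hc1 : (1 : ℝ) < c := by
    have : (0 : ℝ) ≤ (b : ℝ) * (1 + Real.log N) := by positivity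
    linarith
  have hcpos : 0 < c := by
    have : (0 : ℝ) < c := by linarith
    exact_mod_cast this
  have hdis : Disjoint C B := by
    rw [Finset.disjoint_left]
    intro x hx hxB
    have h3 := (Finset.mem_filter.mp hx).2 x hxB
    exact ne_of_mem_noLoop hH h3 rfl
  have hZ : biclique C B ⊆ H := by
    intro e he
    obtain ⟨⟨x, y⟩, hxy, rfl⟩ := Finset.mem_image.mp he
    obtain ⟨h3, h4⟩ := Finset.mem_product.mp hxy
    exact (Finset.mem_filter.mp h3).2 y h4
  have h3 := hyp _ hZ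
  rw [card_biclique hdis] at h3
  have h4 : ((orb (biclique C B)).card : ℝ) ≤
      ((Fintype.card X).choose c : ℝ) * ((Fintype.card X).choose b : ℝ) := by
    exact_mod_cast card_orb_biclique C B
  have h5 : ((Fintype.card X).choose c : ℝ) ≤ N ^ c / (c ! : ℝ) := Nat.choose_le_pow_div c _
  have h6 : ((Fintype.card X).choose b : ℝ) ≤ N ^ b := by
    have : (Fintype.card X).choose b ≤ (Fintype.card X) ^ b := Nat.choose_le_pow _ _
    rw [hN]
    exact_mod_cast this
  set y := N * q ^ b with hy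
  have hy0 : 0 ≤ y := by positivity
  have h7 : (1 / 2 : ℝ) ≤ N ^ b * (y ^ c / (c ! : ℝ)) := by
    have h8 : ((orb (biclique C B)).card : ℝ) ≤ N ^ c / (c ! : ℝ) * N ^ b :=
      h4.trans (mul_le_mul h5 h6 (Nat.cast_nonneg _) (by positivity))
    have h9 : N ^ b * (y ^ c / (c ! : ℝ)) = N ^ c / (c ! : ℝ) * N ^ b * q ^ (c * b) := by
      rw [hy, mul_pow, ← pow_mul, mul_comm b c]; ring
    rw [h9]
    calc (1 / 2 : ℝ) ≤ _ := h3
      _ ≤ _ := mul_le_mul_of_nonneg_right h8 (by positivity)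
  have h10 := pow_div_fact_le hy0 hcpos
  have h11 : Real.exp 1 * y / c ≤ Real.exp (-1) := by
    rw [div_le_iff₀ (by linarith)]
    have he : Real.exp 2 = Real.exp 1 * Real.exp 1 := by rw [← Real.exp_add]; norm_num
    have h12 : Real.exp 1 * Real.exp (-1) = 1 := by rw [← Real.exp_add]; simp
    have h13 : Real.exp 2 * y < c := by
      rw [hy]; linarith [h1, mul_assoc (Real.exp 2) N (q ^ b)]
    have h14 : Real.exp 1 * y = Real.exp (-1) * (Real.exp 2 * y) := by
      rw [he]
      calc Real.exp 1 * y = (Real.exp 1 * Real.exp (-1)) * Real.exp 1 * y := by rw [h12]; ring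
        _ = _ := by ring
    rw [h14]
    exact mul_le_mul_of_nonneg_left h13.le (Real.exp_pos _).le
  have h12 : (Real.exp 1 * y / c) ^ c ≤ Real.exp (-1) ^ c :=
    pow_le_pow_left₀ (by positivity) h11 _
  have h13 : Real.exp (-1) ^ c = Real.exp (-(c : ℝ)) := by
    rw [← Real.exp_nat_mul]; congr 1; ring
  rw [h13] at h12
  have h14 : (1 / 2 : ℝ) ≤ N ^ b * Real.exp (-(c : ℝ)) :=
    h7.trans (mul_le_mul_of_nonneg_left (h10.trans h12) (by positivity))
  have h15 : Real.exp (c : ℝ) ≤ 2 * N ^ b := by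
    have h16 : Real.exp (-(c : ℝ)) = (Real.exp (c : ℝ))⁻¹ := Real.exp_neg _
    rw [h16] at h14
    have h17 := Real.exp_pos (c : ℝ)
    rw [← div_eq_mul_inv, le_div_iff₀ h17] at h14
    linarith
  have h16 : (c : ℝ) ≤ Real.log (2 * N ^ b) := by
    rw [Real.le_log_iff_exp_le (by positivity)]
    exact h15
  rw [Real.log_mul (by norm_num) (by positivity), Real.log_pow] at h16
  have h17 : Real.log 2 ≤ 1 := by
    have := Real.log_two_lt_d9
    linarith
  have h18 : (b : ℝ) * Real.log N ≤ b * (1 + Real.log N) :=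
    mul_le_mul_of_nonneg_left (by linarith) (Nat.cast_nonneg _)
  linarith

/-- The threshold condition on the codegree. -/
def good (N : ℕ) (q : ℝ) (b : ℕ) : Prop :=
  1 + (b : ℝ) * (1 + Real.log N) ≤ Real.exp 2 * (N : ℝ) * q ^ b

lemma good_zero {N : ℕ} (hN : 0 < N) (q : ℝ) : good N q 0 := by
  unfold good
  have h1 : (1 : ℝ) ≤ N := by exact_mod_cast hN
  have h2 : (1 : ℝ) ≤ Real.exp 2 := Real.one_le_exp (by norm_num)
  simp only [Nat.cast_zero, zero_mul, add_zero, pow_zero, mul_one]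
  nlinarith

lemma exists_not_good (N : ℕ) {q : ℝ} (hq : 0 < q) (hq1 : q < 1) : ∃ b, ¬ good N q b := by
  have h1 := tendsto_pow_atTop_nhds_zero_of_lt_one hq.le hq1
  have h2 : Filter.Tendsto (fun b => Real.exp 2 * (N : ℝ) * q ^ b) Filter.atTop (nhds 0) := by
    simpa using h1.const_mul (Real.exp 2 * (N : ℝ))
  obtain ⟨b, hb⟩ := ((tendsto_order.mp h2).2 1 one_pos).exists
  refine ⟨b, fun h => ?_⟩
  unfold good at h
  have h3 : 0 ≤ (b : ℝ) * (1 + Real.log N) := by
    apply mul_nonneg (Nat.cast_nonneg _)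
    have := Real.log_natCast_nonneg N
    linarith
  linarith

lemma cod_le_of_good {H : Finset (Sym2 X)} {q : ℝ} (hyp : Hyp1 H q) (hq : 0 < q) (hq1 : q ≤ 1)
    (hH : NoLoop H) (B : Finset X) (hX : 0 < Fintype.card X)
    (hg : good (Fintype.card X) q B.card) :
    ((cn H B).card : ℝ) ≤ Real.exp 2 * (Fintype.card X) * q ^ B.card :=
  (cod_bound hyp hq hq1 hH B hX).trans (max_le le_rfl hg)

/-- An elementary inequality. -/
lemma exp_ineq {a : ℝ} (ha : 1 ≤ a) : (5 / 4 : ℝ) ^ 8 * a ^ 16 * 4 < Real.exp (10 + 6 * a) := by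
  have h1 : a ≤ Real.exp (3 * a / 8) := by
    have h2 := Real.add_one_le_exp (3 * a / 8 - 1)
    have h3 : Real.exp (3 * a / 8) = Real.exp 1 * Real.exp (3 * a / 8 - 1) := by
      rw [← Real.exp_add]; congr 1; ring
    have h4 := Real.exp_one_gt_d9
    rw [h3]
    have h5 : 0 ≤ 3 * a / 8 - 1 + 1 := by linarith
    nlinarith
  have h2 : a ^ 16 ≤ Real.exp (6 * a) := by
    have h3 : Real.exp (6 * a) = Real.exp (3 * a / 8) ^ 16 := by
      rw [← Real.exp_nat_mul]; congr 1; push_cast; ring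
    rw [h3]
    exact pow_le_pow_left₀ (by linarith) h1 _
  have h3 : (24 : ℝ) < Real.exp 10 := by
    have h4 : Real.exp 10 = Real.exp 1 ^ 10 := by
      rw [← Real.exp_nat_mul]; norm_num
    have h5 := Real.exp_one_gt_d9
    rw [h4]
    calc (24 : ℝ) < (2.7 : ℝ) ^ 10 := by norm_num
      _ ≤ _ := pow_le_pow_left₀ (by norm_num) (by linarith) _
  have h4 : Real.exp (10 + 6 * a) = Real.exp 10 * Real.exp (6 * a) := Real.exp_add _ _
  rw [h4]
  have h5 : (0 : ℝ) < a ^ 16 := by positivity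
  have h6 : (5 / 4 : ℝ) ^ 8 * 4 < 24 := by norm_num
  calc (5 / 4 : ℝ) ^ 8 * a ^ 16 * 4 = ((5 / 4 : ℝ) ^ 8 * 4) * a ^ 16 := by ring
    _ < 24 * a ^ 16 := by exact mul_lt_mul_of_pos_right h6 h5
    _ ≤ 24 * Real.exp (6 * a) := by exact mul_le_mul_of_nonneg_left h2 (by norm_num)
    _ < _ := mul_lt_mul_of_pos_right h3 (Real.exp_pos _)

/-- **Degeneracy from the failure of the threshold condition.** -/
theorem degen_of_not_good {H : Finset (Sym2 X)} {q : ℝ} {β : ℕ} (hyp : Hyp1 H q) (hq : 0 < q)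
    (hq1 : q ≤ Real.exp (-1)) (hX : 0 < Fintype.card X)
    (hβ : ¬ good (Fintype.card X) q β) : Degen (8 * β) H := by
  intro F' hF' hne
  by_contra hcon
  push Not at hcon
  have hq1' : q ≤ 1 := hq1.trans (by
    rw [Real.exp_le_one_iff]; norm_num)
  set N : ℝ := (Fintype.card X : ℝ) with hN
  have hN1 : (1 : ℝ) ≤ N := by rw [hN]; exact_mod_cast hX
  have hN0 : 0 < N := by linarith
  set δ := 8 * β + 1 with hδ
  have hmin : MinDeg δ F' := by
    intro u
    by_cases h : (star F' u).Nonempty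
    · right
      have := hcon u h
      omega
    · left
      rwa [Finset.not_nonempty_iff_eq_empty, ← Finset.card_eq_zero] at h
  have h1 := card_supp_mul_le hmin
  set v := (supp F').card with hv
  have hvpos : 0 < v := by
    obtain ⟨e, he⟩ := hne
    induction e using Sym2.ind with
    | _ a b =>
      exact Finset.card_pos.mpr ⟨a, mem_supp.mpr ⟨_, he, Sym2.mem_mk_left a b⟩⟩
  have h2 := hyp F' hF'
  have h3 : ((orb F').card : ℝ) ≤ N ^ v := by
    rw [hN]; exact_mod_cast card_orb_le_pow F'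
  have h4 : (1 / 2 : ℝ) ≤ N ^ v * q ^ F'.card :=
    h2.trans (mul_le_mul_of_nonneg_right h3 (by positivity))
  -- squaring
  have h5 : (1 / 4 : ℝ) ≤ (N ^ 2 * q ^ δ) ^ v := by
    have h6 : (N ^ v * q ^ F'.card) ^ 2 ≤ (N ^ 2 * q ^ δ) ^ v := by
      have h7 : q ^ (2 * F'.card) ≤ q ^ (δ * v) := pow_le_pow_of_le_one hq.le hq1' h1
      calc (N ^ v * q ^ F'.card) ^ 2 = (N ^ 2) ^ v * q ^ (2 * F'.card) := by
            rw [mul_pow, ← pow_mul, ← pow_mul, ← pow_mul]; ring_nf
        _ ≤ (N ^ 2) ^ v * q ^ (δ * v) := mul_le_mul_of_nonneg_left h7 (by positivity)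
        _ = _ := by rw [mul_pow, pow_mul q]
    have h7 : (1 / 2 : ℝ) ^ 2 ≤ (N ^ v * q ^ F'.card) ^ 2 := pow_le_pow_left₀ (by norm_num) h4 _
    norm_num at h7
    norm_num
    linarith
  have h6 : (1 / 4 : ℝ) ≤ N ^ 2 * q ^ δ := by
    by_contra h7
    rw [not_le] at h7
    have h8 : (0 : ℝ) ≤ N ^ 2 * q ^ δ := by positivity
    have h9 : (N ^ 2 * q ^ δ) ^ v ≤ (N ^ 2 * q ^ δ) ^ 1 :=
      pow_le_pow_of_le_one h8 (by linarith) hvpos
    rw [pow_one] at h9
    linarith
  set w := q ^ β with hw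
  have hw0 : 0 < w := by positivity
  have h7 : (1 / 4 : ℝ) ≤ N ^ 2 * w ^ 8 := by
    have h8 : q ^ δ ≤ w ^ 8 := by
      rw [hw, ← pow_mul]
      exact pow_le_pow_of_le_one hq.le hq1' (by omega)
    exact h6.trans (mul_le_mul_of_nonneg_left h8 (by positivity))
  set a := 1 + Real.log N with ha
  have hlog : 0 ≤ Real.log N := Real.log_nonneg hN1
  have ha1 : 1 ≤ a := by linarith
  have hNe : N = Real.exp (a - 1) := by
    rw [ha]; simp only [add_sub_cancel_left]; rw [Real.exp_log hN0]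
  -- the size of β
  have h8 : (8 * β : ℝ) ≤ 2 * a := by
    have h9 : w ^ 8 ≤ Real.exp (-(8 * β : ℝ)) := by
      have h10 : w ^ 8 = q ^ (8 * β) := by rw [hw, ← pow_mul]; ring_nf
      rw [h10]
      calc q ^ (8 * β) ≤ Real.exp (-1) ^ (8 * β) := pow_le_pow_left₀ hq.le hq1 _
        _ = _ := by rw [← Real.exp_nat_mul]; congr 1; push_cast; ring
    have h10 : (1 / 4 : ℝ) ≤ Real.exp (2 * (a - 1)) * Real.exp (-(8 * β : ℝ)) := by
      have h11 : N ^ 2 = Real.exp (2 * (a - 1)) := by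
        rw [hNe, ← Real.exp_nat_mul]; norm_num
      rw [← h11]
      exact h7.trans (mul_le_mul_of_nonneg_left h9 (by positivity))
    rw [← Real.exp_add] at h10
    have h11 : Real.log (1 / 4) ≤ 2 * (a - 1) + -(8 * β : ℝ) := by
      rw [Real.log_le_iff_le_exp (by norm_num)]
      exact h10
    have h12 : Real.log (1 / 4 : ℝ) = -(2 * Real.log 2) := by
      rw [show (1 / 4 : ℝ) = (2 ^ 2)⁻¹ by norm_num, Real.log_inv, Real.log_pow]; norm_num
    have h13 := Real.log_two_lt_d9
    rw [h12] at h11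
    linarith
  have hgoodf : Real.exp 2 * N * w < 1 + (β : ℝ) * a := by
    have := hβ
    unfold good at this
    rw [not_le] at this
    exact this
  have h9 : 1 + (β : ℝ) * a ≤ (5 / 4) * a ^ 2 := by
    have h10 : (β : ℝ) ≤ a / 4 := by linarith
    have h11 : (β : ℝ) * a ≤ a / 4 * a := mul_le_mul_of_nonneg_right h10 (by linarith)
    nlinarith
  have h10 : (Real.exp 2 * N * w) ^ 8 < ((5 / 4) * a ^ 2) ^ 8 := by
    apply pow_lt_pow_left₀ (hgoodf.trans_le h9) (by positivity) (by norm_num)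
  have h11 : (Real.exp 2 * N * w) ^ 8 = Real.exp 16 * N ^ 6 * (N ^ 2 * w ^ 8) := by
    have : Real.exp 2 ^ 8 = Real.exp 16 := by
      rw [← Real.exp_nat_mul]; norm_num
    rw [mul_pow, mul_pow, this]; ring
  rw [h11] at h10
  have h12 : Real.exp 16 * N ^ 6 * (1 / 4) ≤ Real.exp 16 * N ^ 6 * (N ^ 2 * w ^ 8) :=
    mul_le_mul_of_nonneg_left h7 (by positivity)
  have h13 : Real.exp 16 * N ^ 6 = Real.exp (10 + 6 * a) := by
    have h14 : N ^ 6 = Real.exp (6 * (a - 1)) := by
      rw [hNe, ← Real.exp_nat_mul]; norm_num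
    rw [h14, ← Real.exp_add]; congr 1; ring
  have h14 := exp_ineq ha1
  rw [h13] at h12 h10
  have h15 : ((5 / 4 : ℝ) * a ^ 2) ^ 8 = (5 / 4 : ℝ) ^ 8 * a ^ 16 := by
    rw [mul_pow, ← pow_mul]
  rw [h15] at h10
  linarith

end

end Vale.Agent.P064L
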