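import Vale.Agent.P064L.Cod

/-!
# Disjoint families of copies
-/

set_option linter.unusedSectionVars false
set_option linter.unusedVariables false
set_option linter.unusedDecidableInType false
set_option linter.unusedFintypeInType false

open Finset
open scoped Classical Nat

namespace Vale.Agent.P064L

noncomputable section

variable {X W : Type*} [Fintype X] [Fintype W]

/-- The edge set of a graph as a finite set. -/
def eds (G : SimpleGraph X) : Finset (Sym2 X) := univ.filter (· ∈ G.edgeSet)

lemma mem_eds {G : SimpleGraph X} {e : Sym2 X} : e ∈ eds G ↔ e ∈ G.edgeSet := by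
  simp [eds]

lemma s_mem_eds {G : SimpleGraph X} {a b : X} : s(a, b) ∈ eds G ↔ G.Adj a b := by
  rw [mem_eds, SimpleGraph.mem_edgeSet]

lemma noLoop_eds (G : SimpleGraph X) : NoLoop (eds G) := by
  intro e he
  exact G.not_isDiag_of_mem_edgeSet (mem_eds.mp he)

/-- Labelled copies as functions. -/
def emb (K : SimpleGraph W) (G : SimpleGraph X) : Finset (W → X) :=
  univ.filter fun f => Function.Injective f ∧ ∀ a b, K.Adj a b → G.Adj (f a) (f b)

lemma mem_emb {K : SimpleGraph W} {G : SimpleGraph X} {f : W → X} :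
    f ∈ emb K G ↔ Function.Injective f ∧ ∀ a b, K.Adj a b → G.Adj (f a) (f b) := by
  simp [emb]

lemma labelled_eq_card_emb (K : SimpleGraph W) (G : SimpleGraph X) :
    G.labelledCopyCount K = (emb K G).card := by
  classical
  unfold SimpleGraph.labelledCopyCount
  rw [← Fintype.card_coe (emb K G)]
  refine Fintype.card_congr
    { toFun := fun f => ⟨f, mem_emb.mpr ⟨f.injective, fun a b h => f.toHom.map_adj h⟩⟩
      invFun := fun f => ⟨⟨f.1, fun {a b} h => (mem_emb.mp f.2).2 a b h⟩, (mem_emb.mp f.2).1⟩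
      left_inv := ?_
      right_inv := ?_ }
  · intro f
    rfl
  · intro f
    rfl

/-- The edges of the image of a map. -/
def imgE (K : SimpleGraph W) (f : W → X) : Finset (Sym2 X) := (eds K).image (Sym2.map f)

lemma card_imgE (K : SimpleGraph W) {f : W → X} (hf : Function.Injective f) :
    (imgE K f).card = (eds K).card :=
  Finset.card_image_of_injective _ (Sym2.map.injective hf)

lemma imgE_subset {K : SimpleGraph W} {G : SimpleGraph X} {f : W → X} (hf : f ∈ emb K G) :
    imgE K f ⊆ eds G := by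
  intro e he
  obtain ⟨e', he', rfl⟩ := Finset.mem_image.mp he
  induction e' using Sym2.ind with
  | _ a b =>
    rw [s_mem_eds] at he'
    simp only [Sym2.map_mk]
    exact s_mem_eds.mpr ((mem_emb.mp hf).2 a b he')

lemma act_imgE (σ : Equiv.Perm X) (K : SimpleGraph W) (f : W → X) :
    act σ (imgE K f) = imgE K (σ ∘ f) := by
  unfold act imgE
  rw [Finset.image_image, Sym2.map_comp]

lemma imgE_disjoint (K : SimpleGraph W) {f g : W → X}
    (h : Disjoint (univ.image f) (univ.image g)) : Disjoint (imgE K f) (imgE K g) := by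
  rw [Finset.disjoint_left] at h ⊢
  intro e he he'
  obtain ⟨e1, _, rfl⟩ := Finset.mem_image.mp he
  obtain ⟨e2, _, h2⟩ := Finset.mem_image.mp he'
  induction e1 using Sym2.ind with
  | _ a b =>
    induction e2 using Sym2.ind with
    | _ c d =>
      simp only [Sym2.map_mk] at h2
      have h3 : g c = f a ∨ g c = f b := by
        have : g c ∈ s(f a, f b) := by rw [← h2]; exact Sym2.mem_mk_left _ _
        simpa using this
      rcases h3 with h3 | h3
      · exact h (Finset.mem_image_of_mem f (Finset.mem_univ a)) (h3 ▸ Finset.mem_image_of_mem g (Finset.mem_univ c))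
      · exact h (Finset.mem_image_of_mem f (Finset.mem_univ b)) (h3 ▸ Finset.mem_image_of_mem g (Finset.mem_univ c))

/-- The factorial bound on a family of vertex disjoint copies. -/
theorem family_bound {K : SimpleGraph W} {G : SimpleGraph X} {q : ℝ} (hq : 0 ≤ q)
    (hyp : Hyp1 (eds G) q) {Y : Finset (W → X)} (hY : Y ⊆ emb K G)
    (hdis : ∀ f ∈ Y, ∀ g ∈ Y, f ≠ g → Disjoint (univ.image f) (univ.image g)) :
    ((Y.card)! : ℝ) ≤ 2 * (((Fintype.card X : ℝ) ^ Fintype.card W) * q ^ (eds K).card) ^ Y.card := by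
  set Z := Y.biUnion (imgE K) with hZ
  have hZsub : Z ⊆ eds G := by
    apply Finset.biUnion_subset.mpr
    intro f hf
    exact imgE_subset (hY hf)
  have hcard : Z.card = Y.card * (eds K).card := by
    rw [hZ, Finset.card_biUnion]
    · rw [Finset.sum_congr rfl (g := fun _ => (eds K).card), Finset.sum_const, smul_eq_mul]
      intro f hf
      exact card_imgE K (mem_emb.mp (hY hf)).1
    · intro f hf g hg hfg
      exact imgE_disjoint K (hdis f hf g hg hfg)
  have h1 := hyp Z hZsub
  have horb : (orb Z).card ≤ ((Fintype.card X) ^ (Fintype.card W)).choose Y.card := by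
    have hsub : orb Z ⊆ (Finset.powersetCard Y.card (univ : Finset (W → X))).image
        (fun Y' => Y'.biUnion (imgE K)) := by
      intro Z' hZ'
      obtain ⟨σ, rfl⟩ := mem_orb.mp hZ'
      refine Finset.mem_image.mpr ⟨Y.image (fun f => σ ∘ f), ?_, ?_⟩
      · refine Finset.mem_powersetCard.mpr ⟨Finset.subset_univ _, ?_⟩
        apply Finset.card_image_of_injective
        intro f g h
        funext a
        exact σ.injective (congrFun h a)
      · ext e
        simp only [Finset.mem_biUnion, Finset.mem_image, hZ, mem_act]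
        constructor
        · rintro ⟨_, ⟨f, hf, rfl⟩, he⟩
          rw [← act_imgE] at he
          obtain ⟨e', he', rfl⟩ := mem_act.mp he
          exact ⟨e', ⟨f, hf, he'⟩, rfl⟩
        · rintro ⟨e', ⟨f, hf, he'⟩, rfl⟩
          refine ⟨σ ∘ f, ⟨f, hf, rfl⟩, ?_⟩
          rw [← act_imgE]
          exact mem_act.mpr ⟨e', he', rfl⟩
    refine (Finset.card_le_card hsub).trans (Finset.card_image_le.trans ?_)
    rw [Finset.card_powersetCard, Finset.card_univ, Fintype.card_fun]
  set N : ℝ := (Fintype.card X : ℝ) with hN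
  set v := Fintype.card W with hv
  set M := Y.card with hM
  set e := (eds K).card with he
  have h2 : ((orb Z).card : ℝ) ≤ (N ^ v) ^ M / (M ! : ℝ) := by
    have h3 : ((orb Z).card : ℝ) ≤ (((Fintype.card X) ^ v).choose M : ℝ) := by
      exact_mod_cast horb
    have h4 := Nat.choose_le_pow_div (α := ℝ) M ((Fintype.card X) ^ v)
    rw [hN]
    push_cast at h4
    exact h3.trans h4
  have h3 : (1 / 2 : ℝ) ≤ (N ^ v) ^ M / (M ! : ℝ) * q ^ (M * e) := by
    rw [hcard] at h1
    exact h1.trans (mul_le_mul_of_nonneg_right h2 (by positivity))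
  have hf : (0 : ℝ) < (M ! : ℝ) := by exact_mod_cast Nat.factorial_pos M
  have h4 : (N ^ v) ^ M / (M ! : ℝ) * q ^ (M * e) = (N ^ v * q ^ e) ^ M / (M ! : ℝ) := by
    rw [mul_pow, ← pow_mul q, mul_comm e M]
    ring
  rw [h4, le_div_iff₀ hf] at h3
  linarith

/-- The family has at most `2 e y` elements. -/
lemma card_le_of_fact {M : ℕ} {y : ℝ} (hy : 0 ≤ y) (h : ((M)! : ℝ) ≤ 2 * y ^ M) (hM : 0 < M) :
    (M : ℝ) ≤ 2 * Real.exp 1 * y := by
  by_contra hcon
  rw [not_le] at hcon
  have hM' : (0 : ℝ) < M := by exact_mod_cast hM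
  have h1 := pow_div_fact_le hy hM
  have hf : (0 : ℝ) < (M ! : ℝ) := by exact_mod_cast Nat.factorial_pos M
  have h2 : (1 / 2 : ℝ) ≤ y ^ M / (M ! : ℝ) := by
    rw [le_div_iff₀ hf]
    linarith
  have h3 : Real.exp 1 * y / M < 1 / 2 := by
    rw [div_lt_iff₀ hM']
    linarith
  have h4 : (Real.exp 1 * y / M) ^ M < (1 / 2 : ℝ) ^ M :=
    pow_lt_pow_left₀ h3 (by positivity) hM.ne'
  have h5 : (1 / 2 : ℝ) ^ M ≤ (1 / 2 : ℝ) ^ 1 :=
    pow_le_pow_of_le_one (by norm_num) (by norm_num) hM
  rw [pow_one] at h5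
  linarith

end

end Vale.Agent.P064L
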