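import Vale.Agent.P064L.Interface

/-!
# The spread inequality with a logarithmic loss, for all host graphs
-/

set_option linter.unusedSectionVars false
set_option linter.unusedVariables false
set_option linter.unusedDecidableInType false
set_option linter.unusedFintypeInType false

open Finset
open scoped Classical Nat

namespace Vale.Agent.P064L

noncomputable section

variable {V W W' : Type*} [Fintype V] [Fintype W] [Fintype W']

/-- The bound on labelled copies for patterns without isolated vertices. -/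
theorem emb_bound {n : ℕ} (hn : 1 ≤ n) (H : SimpleGraph V) (hV : Fintype.card V ≤ n) {q : ℝ}
    (hq : 0 < q) (hq1 : q ≤ Real.exp (-1))
    (hq2 : 72 * (1 + Real.log ((2 * n : ℕ) : ℝ)) * q ≤ 1)
    (hE : ∀ G' : H.Subgraph, (1 / 2 : ℝ) ≤
      (((⊤ : SimpleGraph (Fin n)).copyCount G'.coe : ℕ) : ℝ) * q ^ (G'.coe.edgeSet.ncard))
    (F' : SimpleGraph W') (hno : ∀ a, ∃ b, F'.Adj a b) (he : 1 ≤ (eds F').card) :
    ((emb F' H).card : ℝ) ≤ (((2 * n : ℕ) : ℝ)) ^ Fintype.card W' *
      (420000 * (1 + Real.log ((2 * n : ℕ) : ℝ)) * q) ^ (eds F').card := by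
  set Nn := 2 * n with hNn
  let X := Fin Nn
  have hcardX : Fintype.card X = Nn := Fintype.card_fin _
  set a := 1 + Real.log (Nn : ℝ) with ha
  have hNnpos : 0 < Nn := by omega
  have hNR : (1 : ℝ) ≤ (Nn : ℝ) := by exact_mod_cast hNnpos
  have hlog : 0 ≤ Real.log (Nn : ℝ) := Real.log_nonneg hNR
  have ha1 : 1 ≤ a := by rw [ha]; linarith
  obtain ⟨ι₀⟩ := Function.Embedding.nonempty_of_card_le (α := V) (β := Fin n)
    (by rw [Fintype.card_fin]; exact hV)
  let j : Fin n → X := Fin.castLE (by omega)
  have hj : Function.Injective j := Fin.castLE_injective _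
  let ι : V ↪ X := ι₀.trans ⟨j, hj⟩
  let H' : SimpleGraph X := H.map ι
  have hyp : Hyp1 (eds H') q := hyp1_of hq.le ι j hj hE
  have hembsub : (emb F' H).card ≤ (emb F' H').card := by
    refine Finset.card_le_card_of_injOn (fun g => ι ∘ g) ?_ ?_
    · intro g hg
      obtain ⟨h1, h2⟩ := mem_emb.mp (Finset.mem_coe.mp hg)
      refine Finset.mem_coe.mpr (mem_emb.mpr ⟨ι.injective.comp h1, ?_⟩)
      intro x y hxy
      exact (SimpleGraph.map_adj _ _ _ _).mpr ⟨_, _, h2 x y hxy, rfl, rfl⟩
    · intro g₁ _ g₂ _ h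
      funext x
      exact ι.injective (congrFun h x)
  have hembsubR : ((emb F' H).card : ℝ) ≤ ((emb F' H').card : ℝ) := by exact_mod_cast hembsub
  refine hembsubR.trans ?_
  set e := (eds F').card with hedef
  set v := Fintype.card W' with hv
  have hq' : 0 < (420000 * a * q) := by positivity
  have hRHS0 : 0 ≤ ((Nn : ℝ)) ^ v * (420000 * a * q) ^ e := by positivity
  by_cases hg : good (Fintype.card X) q 1
  · -- the dense regime
    have hsupp : 2 * (supp (eds H')).card ≤ Fintype.card X := by
      have h1 : supp (eds H') ⊆ (univ : Finset V).image ι := by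
        intro x hx
        obtain ⟨e', he', hxe⟩ := mem_supp.mp hx
        obtain ⟨c, d, rfl⟩ := exists_of_mem_sub (Subset.refl _) he'
        have h2 : x = ι c ∨ x = ι d := by simpa using hxe
        rcases h2 with rfl | rfl
        · exact Finset.mem_image_of_mem _ (Finset.mem_univ _)
        · exact Finset.mem_image_of_mem _ (Finset.mem_univ _)
      have h2 := (Finset.card_le_card h1).trans Finset.card_image_le
      rw [Finset.card_univ] at h2
      rw [hcardX]
      omega
    have D : Dense (eds H') q :=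
      { noLoop := noLoop_eds H'
        hyp := hyp
        q_pos := hq
        q_le := hq1
        supp_le := hsupp
        good1 := hg
        card_pos := by rw [hcardX]; exact hNnpos }
    set m := ⌈2 * Real.log (Nn : ℝ)⌉₊ with hm
    have hm1 : (m : ℝ) < 2 * Real.log (Nn : ℝ) + 1 := Nat.ceil_lt_add_one (by positivity)
    have hm2 : 2 * Real.log (Nn : ℝ) ≤ (m : ℝ) := Nat.le_ceil _
    have hcard3 : (eds H').card ≤ 3 ^ m := by
      have h1 := card_eds_map_le H'
      rw [hcardX] at h1
      have h2 : ((Nn : ℝ)) ^ 2 ≤ 3 ^ m := by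
        have h3 : ((Nn : ℝ)) ^ 2 = Real.exp (2 * Real.log (Nn : ℝ)) := by
          rw [← Real.exp_log (show (0 : ℝ) < (Nn : ℝ) by linarith), ← Real.exp_nat_mul]
          simp only [Real.exp_log (show (0 : ℝ) < (Nn : ℝ) by linarith)]
          norm_num
        rw [h3]
        calc Real.exp (2 * Real.log (Nn : ℝ)) ≤ Real.exp (m : ℝ) := Real.exp_le_exp.mpr hm2
          _ = Real.exp 1 ^ m := by rw [← Real.exp_nat_mul]; simp
          _ ≤ 3 ^ m := by
              apply pow_le_pow_left₀ (Real.exp_pos _).le
              have := Real.exp_one_lt_d9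
              norm_num at this
              linarith
      have h3 : Nn ^ 2 ≤ 3 ^ m := by exact_mod_cast h2
      exact h1.trans h3
    have hb := dense_bound D hcard3
    set Lm := 35000 * ((m : ℝ) + 1) with hLm
    have hLmpos : 0 < Lm := by positivity
    have hLma : Lm ≤ 70000 * a := by
      rw [hLm, ha]
      linarith
    rcases (emb F' H').eq_empty_or_nonempty with hemp | ⟨a₀, ha₀⟩
    · rw [hemp]
      simpa using hRHS0
    · have ha₀' := (mem_emb.mp ha₀).1
      have h1 := card_emb_le_cnt F' H' a₀ ha₀'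
      have h2 := hb (imgE F' a₀)
      unfold psi at h2
      rw [card_imgE F' ha₀', ← hedef] at h2
      have hfact : (0 : ℝ) < ((Fintype.card X)! : ℝ) := by exact_mod_cast Nat.factorial_pos _
      have hQ : 0 < Lm * q := by positivity
      have hQe : 0 < (Lm * q) ^ e := by positivity
      have h3 : (cnt (eds H') (imgE F' a₀) : ℝ) ≤
          2 * Real.exp 1 * (Lm * q) ^ e * ((Fintype.card X)! : ℝ) := by
        rw [div_le_iff₀ hQe, div_le_iff₀ hfact] at h2
        exact h2
      have h4 : ((emb F' H').card : ℝ) * ((Fintype.card X)! : ℝ) ≤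
          (Nn : ℝ) ^ v * (cnt (eds H') (imgE F' a₀) : ℝ) := by
        have : (((emb F' H').card * (Fintype.card X)! : ℕ) : ℝ) ≤
            (((Fintype.card X) ^ Fintype.card W' * cnt (eds H') (imgE F' a₀) : ℕ) : ℝ) := by
          exact_mod_cast h1
        push_cast at this
        rw [hcardX] at this
        rw [hcardX]
        exact this
      have h5 : ((emb F' H').card : ℝ) ≤ (Nn : ℝ) ^ v * (2 * Real.exp 1 * (Lm * q) ^ e) := by
        have h6 : ((emb F' H').card : ℝ) * ((Fintype.card X)! : ℝ) ≤
            ((Nn : ℝ) ^ v * (2 * Real.exp 1 * (Lm * q) ^ e)) * ((Fintype.card X)! : ℝ) := by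
          calc _ ≤ _ := h4
            _ ≤ (Nn : ℝ) ^ v * (2 * Real.exp 1 * (Lm * q) ^ e * ((Fintype.card X)! : ℝ)) :=
                mul_le_mul_of_nonneg_left h3 (by positivity)
            _ = _ := by ring
        exact le_of_mul_le_mul_right h6 hfact
      refine h5.trans (mul_le_mul_of_nonneg_left ?_ (by positivity))
      have h6 : 2 * Real.exp 1 ≤ 6 := by
        have := Real.exp_one_lt_d9
        norm_num at this
        linarith
      have h7 : (6 : ℝ) ≤ 6 ^ e := le_self_pow₀ (by norm_num) (by omega)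
      calc 2 * Real.exp 1 * (Lm * q) ^ e ≤ 6 ^ e * (Lm * q) ^ e :=
            mul_le_mul_of_nonneg_right (h6.trans h7) (by positivity)
        _ = (6 * (Lm * q)) ^ e := (mul_pow _ _ _).symm
        _ ≤ _ := by
            apply pow_le_pow_left₀ (by positivity)
            have : 6 * (Lm * q) = (6 * Lm) * q := by ring
            rw [this]
            apply mul_le_mul_of_nonneg_right _ hq.le
            linarith
  · -- the sparse regime
    set Δ := ⌈1 + a⌉₊ with hΔ
    have hΔ1 : 1 + a ≤ (Δ : ℝ) := Nat.le_ceil _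
    have hΔ2 : (Δ : ℝ) < 1 + a + 1 := Nat.ceil_lt_add_one (by positivity)
    have hΔpos : 1 ≤ Δ := by
      have : (1 : ℝ) ≤ (Δ : ℝ) := by linarith
      exact_mod_cast this
    have hdeg : ∀ x, (nbr (eds H') x).card ≤ Δ := by
      intro x
      have h1 : nbr (eds H') x = cn (eds H') {x} := by
        ext y
        simp only [nbr, cn, mem_filter, mem_univ, true_and, Finset.mem_singleton, forall_eq]
        rw [Sym2.eq_swap]
      have h2 := cod_bound hyp hq (hq1.trans (by
        rw [Real.exp_le_one_iff]; norm_num)) (noLoop_eds H') {x} (by rw [hcardX]; exact hNnpos)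
      rw [Finset.card_singleton, hcardX] at h2
      unfold good at hg
      rw [not_le, hcardX] at hg
      simp only [Nat.cast_one, one_mul] at h2 hg
      have h3 : ((cn (eds H') {x}).card : ℝ) ≤ 1 + a := by
        refine h2.trans (max_le ?_ (by rw [ha]))
        rw [pow_one]
        rw [ha]
        linarith
      rw [h1]
      have h4 : ((cn (eds H') {x}).card : ℝ) ≤ (Δ : ℝ) := h3.trans hΔ1
      exact_mod_cast h4
    have h3a : (Δ : ℝ) ≤ 3 * a := by linarith
    have hsmall : 24 * (Δ : ℝ) * q ≤ 1 := by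
      have : 24 * (Δ : ℝ) * q ≤ 72 * a * q := by
        apply mul_le_mul_of_nonneg_right _ hq.le
        linarith
      linarith
    have h1 := noIso_bound hq.le hyp hdeg hΔpos hsmall hno
    rw [hcardX] at h1
    refine h1.trans (mul_le_mul_of_nonneg_left ?_ (by positivity))
    apply pow_le_pow_left₀ (by positivity)
    apply mul_le_mul_of_nonneg_right _ hq.le
    linarith

/-- The constant. -/
def CC : ℝ := 60480000

lemma CC_pos : 0 < CC := by norm_num [CC]

lemma log_bound {n : ℕ} (hn : 2 ≤ n) :
    1 + Real.log ((2 * n : ℕ) : ℝ) ≤ 4 * Real.log n := by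
  have hn' : (0 : ℝ) < n := by positivity
  have h1 : Real.log ((2 * n : ℕ) : ℝ) = Real.log 2 + Real.log n := by
    push_cast
    rw [Real.log_mul (by norm_num) hn'.ne']
  have h2 : Real.log 2 ≤ Real.log n := by
    apply Real.log_le_log (by norm_num)
    exact_mod_cast hn
  have h3 := Real.log_two_gt_d9
  have h4 := Real.log_two_lt_d9
  rw [h1]
  linarith

/-- The bound on labelled copies, in terms of the falling factorial. -/
theorem labelled_general {H : SimpleGraph V} {n : ℕ} (hn : 2 ≤ n)
    (hV : Fintype.card V ≤ n) {q : ℝ} (hq0 : 0 ≤ q)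
    (hE : ∀ G' : H.Subgraph, (1 / 2 : ℝ) ≤
      (((⊤ : SimpleGraph (Fin n)).copyCount G'.coe : ℕ) : ℝ) * q ^ (G'.coe.edgeSet.ncard))
    (hsmall : CC * Real.log n * q < 1)
    (F : SimpleGraph W) (f₀ : SimpleGraph.Copy F H) (he : F.edgeSet.ncard ≠ 0) :
    (H.labelledCopyCount F : ℝ) ≤
      (CC * Real.log n * q) ^ F.edgeSet.ncard * (n.descFactorial (Fintype.card W) : ℝ) := by
  obtain ⟨e, hedge⟩ := Set.nonempty_of_ncard_ne_zero he
  induction e using Sym2.ind with
  | _ a b =>
    have hab : F.Adj a b := hedge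
    have hq : 0 < q := Vale.Agent.P064.q_pos_of_edge hq0 hE (f₀.toHom.map_adj hab)
    have hlog2 : Real.log 2 ≤ Real.log n := by
      apply Real.log_le_log (by norm_num)
      exact_mod_cast hn
    have hlogpos : 0 < Real.log n := by
      have := Real.log_two_gt_d9
      linarith
    have h69 : (0.69 : ℝ) ≤ Real.log n := by
      have := Real.log_two_gt_d9
      linarith
    have hlb := log_bound hn
    have hCq : (3 : ℝ) * q < 1 := by
      have h1 : 3 * q ≤ CC * Real.log n * q := by
        apply mul_le_mul_of_nonneg_right _ hq.le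
        unfold CC
        nlinarith
      linarith
    have hq1 : q ≤ Real.exp (-1) := by
      have h1 : Real.exp (-1) = (Real.exp 1)⁻¹ := Real.exp_neg 1
      rw [h1]
      have h2 := Real.exp_one_lt_d9
      have h3 := Real.exp_pos 1
      rw [le_inv_comm₀ hq h3]
      have h4 : (3 : ℝ) ≤ q⁻¹ := by
        rw [le_inv_comm₀ (by norm_num) hq]
        linarith
      norm_num at h2
      linarith
    have hq2 : 72 * (1 + Real.log ((2 * n : ℕ) : ℝ)) * q ≤ 1 := by
      have h1 : 72 * (1 + Real.log ((2 * n : ℕ) : ℝ)) * q ≤ CC * Real.log n * q := by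
        apply mul_le_mul_of_nonneg_right _ hq.le
        unfold CC
        nlinarith
      linarith
    set F' := F.induce F.support with hF'
    have hno : ∀ x : F.support, ∃ y, F'.Adj x y := by
      rintro ⟨x, y, hxy⟩
      exact ⟨⟨y, x, hxy.symm⟩, hxy⟩
    set ee := F.edgeSet.ncard with hee
    have hedgesF' : (eds F').card = ee := by
      rw [← card_edges_eq, Nat.card_coe_set_eq, hF', Vale.Agent.P064.edges_support]
    have hee1 : 1 ≤ (eds F').card := by
      rw [hedgesF']; omega
    have h1 := emb_bound (by omega) H hV hq hq1 hq2 hE F' hno hee1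
    rw [← labelled_eq_card_emb, hedgesF'] at h1
    set j := Fintype.card F.support with hj
    set m := Fintype.card W - j with hm
    have hjW : j ≤ Fintype.card W := Fintype.card_subtype_le _
    have hWV : Fintype.card W ≤ Fintype.card V := Fintype.card_le_of_injective _ f₀.injective
    have hjn : j ≤ n := by omega
    have hj2 : j ≤ 2 * ee := Vale.Agent.P064.card_support_le F
    have h2 := Vale.Agent.P064.labelled_le_support H F
    rw [← hj, ← hm] at h2
    have h3 : (Fintype.card V - j).descFactorial m ≤ (n - j).descFactorial m :=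
      Nat.descFactorial_le _ (by omega)
    have h4 := Vale.Agent.P064.pow_le_three_descFactorial hjn
    have h5 : n.descFactorial (Fintype.card W) = n.descFactorial j * (n - j).descFactorial m := by
      rw [← Vale.Agent.P064.descFactorial_add]
      congr 1
      omega
    set A := 1 + Real.log ((2 * n : ℕ) : ℝ) with hA
    have hA0 : 0 < A := by
      have : (0 : ℝ) ≤ Real.log ((2 * n : ℕ) : ℝ) := Real.log_natCast_nonneg _
      linarith
    have h6 : (6 : ℝ) ^ j ≤ 36 ^ ee := by
      calc (6 : ℝ) ^ j ≤ 6 ^ (2 * ee) := pow_le_pow_right₀ (by norm_num) hj2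
        _ = 36 ^ ee := by rw [pow_mul]; norm_num
    have h7 : ((2 * n : ℕ) : ℝ) ^ j ≤ 36 ^ ee * (n.descFactorial j : ℝ) := by
      calc ((2 * n : ℕ) : ℝ) ^ j = 2 ^ j * (n : ℝ) ^ j := by push_cast; rw [mul_pow]
        _ ≤ 2 ^ j * (3 ^ j * (n.descFactorial j : ℝ)) :=
            mul_le_mul_of_nonneg_left h4 (by positivity)
        _ = 6 ^ j * (n.descFactorial j : ℝ) := by
            rw [← mul_assoc, ← mul_pow]; norm_num
        _ ≤ _ := mul_le_mul_of_nonneg_right h6 (by positivity)
    have hq3 : 0 ≤ (420000 * A * q) ^ ee := by positivity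
    have h8 : 36 * (420000 * A * q) ≤ CC * Real.log n * q := by
      have : 36 * (420000 * A * q) = (36 * 420000 * A) * q := by ring
      rw [this]
      apply mul_le_mul_of_nonneg_right _ hq.le
      unfold CC
      nlinarith
    have h9 : (36 : ℝ) ^ ee * (420000 * A * q) ^ ee ≤ (CC * Real.log n * q) ^ ee := by
      rw [← mul_pow]
      exact pow_le_pow_left₀ (by positivity) h8 _
    calc (H.labelledCopyCount F : ℝ)
        ≤ ((H.labelledCopyCount (F.induce F.support) : ℝ)) *
            ((Fintype.card V - j).descFactorial m : ℝ) := by exact_mod_cast h2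
      _ ≤ (((2 * n : ℕ) : ℝ) ^ j * (420000 * A * q) ^ ee) * ((n - j).descFactorial m : ℝ) := by
          apply mul_le_mul h1 (by exact_mod_cast h3) (Nat.cast_nonneg _) (by positivity)
      _ ≤ ((36 ^ ee * (n.descFactorial j : ℝ)) * (420000 * A * q) ^ ee) *
            ((n - j).descFactorial m : ℝ) := by
          apply mul_le_mul_of_nonneg_right _ (Nat.cast_nonneg _)
          exact mul_le_mul_of_nonneg_right h7 hq3
      _ = ((36 : ℝ) ^ ee * (420000 * A * q) ^ ee) * (n.descFactorial (Fintype.card W) : ℝ) := by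
          rw [h5]
          push_cast
          ring
      _ ≤ _ := mul_le_mul_of_nonneg_right h9 (Nat.cast_nonneg _)

/-- **The spread inequality with a logarithmic loss.** -/
theorem spread_general (n : ℕ) (hn : 2 ≤ n) (H : SimpleGraph V)
    (hV : Fintype.card V ≤ n) (q : ℝ) (hq0 : 0 ≤ q)
    (hE : ∀ G' : H.Subgraph, (1 / 2 : ℝ) ≤
      (((⊤ : SimpleGraph (Fin n)).copyCount G'.coe : ℕ) : ℝ) * q ^ (G'.coe.edgeSet.ncard))
    (F : SimpleGraph W) :
    (H.copyCount F : ℝ) ≤
      ((⊤ : SimpleGraph (Fin n)).copyCount F : ℝ) *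
        (min 1 (CC * Real.log n * q)) ^ F.edgeSet.ncard := by
  have hlog : 0 ≤ Real.log n := Real.log_natCast_nonneg n
  have hmin0 : 0 ≤ min 1 (CC * Real.log n * q) :=
    le_min zero_le_one (mul_nonneg (mul_nonneg CC_pos.le hlog) hq0)
  by_cases hne : Nonempty (SimpleGraph.Copy F H)
  swap
  · have h1 : H.copyCount F = 0 := by
      rw [SimpleGraph.copyCount_eq_zero]
      exact fun h => hne h
    rw [h1]
    simp only [Nat.cast_zero]
    positivity
  obtain ⟨f₀⟩ := hne
  have haut : 0 < Nat.card (F ≃g F) := Nat.card_pos_iff.mpr ⟨⟨SimpleGraph.Iso.refl⟩, inferInstance⟩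
  have hautR : (0 : ℝ) < (Nat.card (F ≃g F) : ℝ) := by exact_mod_cast haut
  set a : ℝ := (Nat.card (F ≃g F) : ℝ) with ha
  have hlab1 : (H.labelledCopyCount F : ℝ) = (H.copyCount F : ℝ) * a := by
    rw [Vale.Agent.P064.labelled_eq]; push_cast; rfl
  have hlab2 : ((⊤ : SimpleGraph (Fin n)).labelledCopyCount F : ℝ) =
      ((⊤ : SimpleGraph (Fin n)).copyCount F : ℝ) * a := by
    rw [Vale.Agent.P064.labelled_eq]; push_cast; rfl
  have hmain : (H.labelledCopyCount F : ℝ) ≤
      ((⊤ : SimpleGraph (Fin n)).labelledCopyCount F : ℝ) *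
        (min 1 (CC * Real.log n * q)) ^ F.edgeSet.ncard := by
    by_cases he : F.edgeSet.ncard = 0
    · rw [he, pow_zero, mul_one]
      exact_mod_cast Vale.Agent.P064.labelled_le_top H F hV
    · by_cases hLq : 1 ≤ CC * Real.log n * q
      · rw [min_eq_left hLq, one_pow, mul_one]
        exact_mod_cast Vale.Agent.P064.labelled_le_top H F hV
      · rw [min_eq_right (not_le.mp hLq).le, Vale.Agent.P064.labelled_top, mul_comm]
        exact labelled_general hn hV hq0 hE (not_le.mp hLq) F f₀ he
  rw [hlab1, hlab2] at hmain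
  have h2 : (H.copyCount F : ℝ) * a ≤
      (((⊤ : SimpleGraph (Fin n)).copyCount F : ℝ) *
        (min 1 (CC * Real.log n * q)) ^ F.edgeSet.ncard) * a := by
    calc _ ≤ _ := hmain
      _ = _ := by ring
  exact le_of_mul_le_mul_right h2 hautR

end

end Vale.Agent.P064L
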