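import Vale.Agent.P064L.Family

/-!
# The bound in terms of the maximum degree of the host
-/

set_option linter.unusedSectionVars false
set_option linter.unusedVariables false
set_option linter.unusedDecidableInType false
set_option linter.unusedFintypeInType false

open Finset
open scoped Classical Nat

namespace Vale.Agent.P064L

noncomputable section

variable {X W : Type*} [Fintype X] [Fintype W]

/-- Restriction of a map to a finite set, coded by an optional value. -/
def res (B : Finset W) (g : W → X) : W → Option X := fun w => if w ∈ B then some (g w) else none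

/-- The number of copies of a connected graph with a prescribed vertex. -/
lemma fix_bound {K : SimpleGraph W} {G : SimpleGraph X} {Δ : ℕ}
    (hΔ : ∀ x, (nbr (eds G) x).card ≤ Δ) (hK : K.Connected) (x : W) (y : X) :
    ((emb K G).filter (fun g => g x = y)).card ≤ Δ ^ (Fintype.card W - 1) := by
  set S := (emb K G).filter (fun g => g x = y) with hS
  have hclaim : ∀ k, k + 1 ≤ Fintype.card W → ∃ B : Finset W, x ∈ B ∧ B.card = k + 1 ∧
      (S.image (res B)).card ≤ Δ ^ k := by
    intro k
    induction k with
    | zero =>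
      intro _
      refine ⟨{x}, Finset.mem_singleton_self x, Finset.card_singleton x, ?_⟩
      rw [pow_zero]
      refine Finset.card_le_one.mpr ?_
      intro r₁ h₁ r₂ h₂
      obtain ⟨g₁, hg₁, rfl⟩ := Finset.mem_image.mp h₁
      obtain ⟨g₂, hg₂, rfl⟩ := Finset.mem_image.mp h₂
      funext w
      unfold res
      by_cases hw : w = x
      · subst hw
        simp [(Finset.mem_filter.mp hg₁).2, (Finset.mem_filter.mp hg₂).2]
      · simp [hw]
    | succ k ih =>
      intro hk
      obtain ⟨B, hxB, hB, hBb⟩ := ih (by omega)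
      have hBlt : B.card < (univ : Finset W).card := by
        rw [Finset.card_univ]; omega
      obtain ⟨w, _, hw⟩ := Finset.exists_mem_notMem_of_card_lt_card hBlt
      obtain ⟨p⟩ := hK.preconnected x w
      obtain ⟨d, _, hd1, hd2⟩ := p.exists_boundary_dart (B : Set W) hxB hw
      set a := d.fst with ha
      set b := d.snd with hb
      have hab : K.Adj a b := d.adj
      have hbB : b ∉ B := hd2
      have haB : a ∈ B := hd1
      refine ⟨insert b B, Finset.mem_insert_of_mem hxB, ?_, ?_⟩
      · rw [Finset.card_insert_of_notMem hbB, hB]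
      let fg : (W → Option X) → (W → Option X) := fun r w => if w = b then none else r w
      have hfg : ∀ g, fg (res (insert b B) g) = res B g := by
        intro g
        funext w
        simp only [fg, res]
        by_cases hwb : w = b
        · subst hwb
          simp [hbB]
        · simp [hwb, Finset.mem_insert]
      have himg : ((S.image (res (insert b B))).image fg) = S.image (res B) := by
        rw [Finset.image_image]
        apply Finset.image_congr
        intro g _
        exact hfg g
      have hfiber : ∀ r₀ ∈ (S.image (res (insert b B))).image fg,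
          ((S.image (res (insert b B))).filter (fun r => fg r = r₀)).card ≤ Δ := by
        intro r₀ hr₀
        obtain ⟨_, h1, rfl⟩ := Finset.mem_image.mp hr₀
        obtain ⟨g₀, hg₀, rfl⟩ := Finset.mem_image.mp h1
        refine le_trans ?_ (hΔ (g₀ a))
        refine Finset.card_le_card_of_injOn (fun r => (r b).getD y) ?_ ?_
        · intro r hr
          obtain ⟨hr1, hr2⟩ := Finset.mem_filter.mp (Finset.mem_coe.mp hr)
          obtain ⟨g, hg, rfl⟩ := Finset.mem_image.mp hr1
          rw [hfg, hfg] at hr2
          have h2 : g a = g₀ a := by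
            have := congrFun hr2 a
            simp only [res, haB, if_true] at this
            exact Option.some.inj this
          have h3 : G.Adj (g a) (g b) :=
            (mem_emb.mp (Finset.mem_filter.mp hg).1).2 a b hab
          rw [h2] at h3
          refine Finset.mem_coe.mpr (Finset.mem_filter.mpr ⟨Finset.mem_univ _, ?_⟩)
          simp only [res, Finset.mem_insert_self, if_true, Option.getD_some]
          exact s_mem_eds.mpr h3
        · intro r₁ h₁ r₂ h₂ h
          obtain ⟨h₁1, h₁2⟩ := Finset.mem_filter.mp (Finset.mem_coe.mp h₁)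
          obtain ⟨h₂1, h₂2⟩ := Finset.mem_filter.mp (Finset.mem_coe.mp h₂)
          obtain ⟨g₁, hg₁, rfl⟩ := Finset.mem_image.mp h₁1
          obtain ⟨g₂, hg₂, rfl⟩ := Finset.mem_image.mp h₂1
          funext w
          by_cases hwb : w = b
          · subst hwb
            simp only [res, Finset.mem_insert_self, if_true, Option.getD_some] at h ⊢
            rw [h]
          · have h3 := congrFun (h₁2.trans h₂2.symm) w
            simp only [fg, hwb, if_false] at h3
            exact h3
      have h1 := Finset.card_le_mul_card_image (S.image (res (insert b B))) Δ hfiber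
      rw [himg] at h1
      calc _ ≤ _ := h1
        _ ≤ Δ * Δ ^ k := Nat.mul_le_mul_left _ hBb
        _ = _ := by rw [pow_succ]; ring
  have hv : 0 < Fintype.card W := Fintype.card_pos_iff.mpr ⟨x⟩
  obtain ⟨B, _, hB, hBb⟩ := hclaim (Fintype.card W - 1) (by omega)
  have hBu : B = univ := by
    apply Finset.eq_univ_of_card
    omega
  subst hBu
  rw [Finset.card_image_of_injOn] at hBb
  · exact hBb
  · intro g₁ _ g₂ _ h
    funext w
    have := congrFun h w
    simp only [res, Finset.mem_univ, if_true] at this
    exact Option.some.inj this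

/-- The number of copies of a connected graph. -/
theorem connected_bound {K : SimpleGraph W} {G : SimpleGraph X} {q : ℝ} {Δ : ℕ} (hq : 0 ≤ q)
    (hyp : Hyp1 (eds G) q) (hΔ : ∀ x, (nbr (eds G) x).card ≤ Δ) (hK : K.Connected) :
    ((emb K G).card : ℝ) ≤ (Fintype.card W : ℝ) ^ 2 *
      (2 * Real.exp 1 * ((Fintype.card X : ℝ) ^ Fintype.card W * q ^ (eds K).card)) *
        (Δ : ℝ) ^ (Fintype.card W - 1) := by
  set y := (Fintype.card X : ℝ) ^ Fintype.card W * q ^ (eds K).card with hy
  have hy0 : 0 ≤ y := by positivity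
  set fam := (emb K G).powerset.filter
    (fun Y => ∀ f ∈ Y, ∀ g ∈ Y, f ≠ g → Disjoint (univ.image f) (univ.image g)) with hfam
  have hfamne : fam.Nonempty := ⟨∅, by simp [hfam]⟩
  obtain ⟨Y, hYfam, hYmax⟩ := Finset.exists_max_image fam Finset.card hfamne
  obtain ⟨hY1, hY2⟩ := Finset.mem_filter.mp hYfam
  have hYsub : Y ⊆ emb K G := Finset.mem_powerset.mp hY1
  set WY := Y.biUnion (fun f => univ.image f) with hWY
  have hcover : ∀ g ∈ emb K G, ∃ x, g x ∈ WY := by
    intro g hg
    by_contra hcon
    push Not at hcon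
    have hgY : g ∉ Y := by
      intro hgY
      have hW : Nonempty W := hK.nonempty
      obtain ⟨a⟩ := hW
      exact hcon a (Finset.mem_biUnion.mpr ⟨g, hgY, Finset.mem_image_of_mem g (Finset.mem_univ a)⟩)
    have hins : insert g Y ∈ fam := by
      refine Finset.mem_filter.mpr ⟨Finset.mem_powerset.mpr (Finset.insert_subset hg hYsub), ?_⟩
      have hdis : ∀ f ∈ Y, Disjoint (univ.image g) (univ.image f) := by
        intro f hf
        rw [Finset.disjoint_left]
        intro z hz hz'
        obtain ⟨a, _, rfl⟩ := Finset.mem_image.mp hz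
        exact hcon a (Finset.mem_biUnion.mpr ⟨f, hf, hz'⟩)
      intro f hf f' hf' hne
      rcases Finset.mem_insert.mp hf with h1 | h1
      · rcases Finset.mem_insert.mp hf' with h2 | h2
        · exact absurd (h1.trans h2.symm) hne
        · rw [h1]; exact hdis f' h2
      · rcases Finset.mem_insert.mp hf' with h2 | h2
        · rw [h2]; exact (hdis f h1).symm
        · exact hY2 f h1 f' h2 hne
    have := hYmax _ hins
    rw [Finset.card_insert_of_notMem hgY] at this
    omega
  have hcov : emb K G ⊆ (univ : Finset W).biUnion (fun x => WY.biUnion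
      (fun y => (emb K G).filter (fun g => g x = y))) := by
    intro g hg
    obtain ⟨x, hx⟩ := hcover g hg
    exact Finset.mem_biUnion.mpr ⟨x, Finset.mem_univ _, Finset.mem_biUnion.mpr
      ⟨g x, hx, Finset.mem_filter.mpr ⟨hg, rfl⟩⟩⟩
  have hWYcard : WY.card ≤ Y.card * Fintype.card W := by
    apply Finset.card_biUnion_le_card_mul
    intro f _
    exact Finset.card_image_le.trans (by rw [Finset.card_univ])
  have hcount : (emb K G).card ≤
      Fintype.card W * (Fintype.card W * Y.card) * Δ ^ (Fintype.card W - 1) := by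
    refine (Finset.card_le_card hcov).trans ?_
    refine (Finset.card_biUnion_le_card_mul _ _ (WY.card * Δ ^ (Fintype.card W - 1)) ?_).trans ?_
    · intro x _
      apply Finset.card_biUnion_le_card_mul
      intro z _
      exact fix_bound hΔ hK x z
    · rw [Finset.card_univ]
      calc Fintype.card W * (WY.card * Δ ^ (Fintype.card W - 1))
          ≤ Fintype.card W * ((Y.card * Fintype.card W) * Δ ^ (Fintype.card W - 1)) :=
            Nat.mul_le_mul_left _ (Nat.mul_le_mul_right _ hWYcard)
        _ = _ := by ring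
  have hRHS0 : 0 ≤ (Fintype.card W : ℝ) ^ 2 * (2 * Real.exp 1 * y) * (Δ : ℝ) ^ (Fintype.card W - 1) := by
    positivity
  rcases Nat.eq_zero_or_pos Y.card with h0 | hMpos
  · have hemp : (emb K G).card = 0 := by
      rw [h0] at hcount
      simpa using hcount
    rw [hemp]
    simpa using hRHS0
  · have hfb := family_bound hq hyp hYsub hY2
    rw [← hy] at hfb
    have hM := card_le_of_fact hy0 hfb hMpos
    have h1 : ((emb K G).card : ℝ) ≤
        (Fintype.card W : ℝ) * ((Fintype.card W : ℝ) * (Y.card : ℝ)) *
          (Δ : ℝ) ^ (Fintype.card W - 1) := by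
      exact_mod_cast hcount
    refine h1.trans ?_
    have h2 : (Fintype.card W : ℝ) * ((Fintype.card W : ℝ) * (Y.card : ℝ)) ≤
        (Fintype.card W : ℝ) ^ 2 * (2 * Real.exp 1 * y) := by
      rw [← mul_assoc, ← sq]
      exact mul_le_mul_of_nonneg_left hM (by positivity)
    exact mul_le_mul_of_nonneg_right h2 (by positivity)

lemma card_edges_eq (K : SimpleGraph W) : Nat.card K.edgeSet = (eds K).card := by
  rw [Nat.card_eq_fintype_card]
  unfold eds
  rw [Fintype.card_subtype]

lemma succ_le_two_pow (e : ℕ) : e + 1 ≤ 2 ^ e := by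
  induction e with
  | zero => simp
  | succ e ih => rw [pow_succ]; omega

/-- The numerical form for connected patterns. -/
theorem connected_bound' {K : SimpleGraph W} {G : SimpleGraph X} {q : ℝ} {Δ : ℕ} (hq : 0 ≤ q)
    (hyp : Hyp1 (eds G) q) (hΔ : ∀ x, (nbr (eds G) x).card ≤ Δ) (hΔ1 : 1 ≤ Δ) (hK : K.Connected)
    (he : 1 ≤ (eds K).card) :
    ((emb K G).card : ℝ) ≤ (Fintype.card X : ℝ) ^ Fintype.card W *
      (24 * (Δ : ℝ) * q) ^ (eds K).card := by
  refine (connected_bound hq hyp hΔ hK).trans ?_
  set e := (eds K).card with hedef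
  set v := Fintype.card W with hv
  set N : ℝ := (Fintype.card X : ℝ) with hN
  have hve : v ≤ e + 1 := by
    have := hK.card_vert_le_card_edgeSet_add_one
    rw [card_edges_eq, Nat.card_eq_fintype_card] at this
    exact this
  have h1 : (v : ℝ) ^ 2 ≤ 4 ^ e := by
    have h2 : v ≤ 2 ^ e := hve.trans (succ_le_two_pow e)
    have h3 : (v : ℝ) ≤ 2 ^ e := by exact_mod_cast h2
    calc (v : ℝ) ^ 2 ≤ ((2 : ℝ) ^ e) ^ 2 := pow_le_pow_left₀ (Nat.cast_nonneg _) h3 _
      _ = 4 ^ e := by rw [← pow_mul, mul_comm, pow_mul]; norm_num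
  have hΔ1' : (1 : ℝ) ≤ (Δ : ℝ) := by exact_mod_cast hΔ1
  have h2 : (Δ : ℝ) ^ (v - 1) ≤ (Δ : ℝ) ^ e := pow_le_pow_right₀ hΔ1' (by omega)
  have h3 : 2 * Real.exp 1 ≤ 6 := by
    have := Real.exp_one_lt_d9
    norm_num at this
    linarith
  have h4 : (6 : ℝ) ≤ 6 ^ e := le_self_pow₀ (by norm_num) (by omega)
  have h5 : 0 ≤ N ^ v * q ^ e := by positivity
  calc (v : ℝ) ^ 2 * (2 * Real.exp 1 * (N ^ v * q ^ e)) * (Δ : ℝ) ^ (v - 1)
      ≤ 4 ^ e * (6 ^ e * (N ^ v * q ^ e)) * (Δ : ℝ) ^ e := by
        apply mul_le_mul _ h2 (by positivity) (by positivity)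
        apply mul_le_mul h1 _ (by positivity) (by positivity)
        apply mul_le_mul_of_nonneg_right (h3.trans h4) h5
    _ = _ := by
        have : (24 * (Δ : ℝ) * q) ^ e = 4 ^ e * 6 ^ e * (Δ : ℝ) ^ e * q ^ e := by
          rw [← mul_pow, ← mul_pow, ← mul_pow]
          norm_num
        rw [this]
        ring

section components

variable {W' : Type*} [Fintype W']

/-- The bound for a pattern without isolated vertices. -/
theorem noIso_bound {F : SimpleGraph W'} {G : SimpleGraph X} {q : ℝ} {Δ : ℕ} (hq : 0 ≤ q)
    (hyp : Hyp1 (eds G) q) (hΔ : ∀ x, (nbr (eds G) x).card ≤ Δ) (hΔ1 : 1 ≤ Δ)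
    (hsmall : 24 * (Δ : ℝ) * q ≤ 1) (hno : ∀ a, ∃ b, F.Adj a b) :
    ((emb F G).card : ℝ) ≤ (Fintype.card X : ℝ) ^ Fintype.card W' *
      (24 * (Δ : ℝ) * q) ^ (eds F).card := by
  classical
  let _ : Fintype F.ConnectedComponent := Fintype.ofFinite _
  let ecount : F.ConnectedComponent → ℕ := fun c => (eds c.toSimpleGraph).card
  have hpi : (emb F G).card ≤
      (Fintype.piFinset (fun c : F.ConnectedComponent => emb c.toSimpleGraph G)).card := by
    refine Finset.card_le_card_of_injOn (fun g c w => g w) ?_ ?_
    · intro g hg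
      simp only [Finset.mem_coe] at hg
      refine Finset.mem_coe.mpr (Fintype.mem_piFinset.mpr ?_)
      intro c
      obtain ⟨h1, h2⟩ := mem_emb.mp hg
      refine mem_emb.mpr ⟨fun a b hab => Subtype.ext (h1 hab), ?_⟩
      intro a b hab
      exact h2 _ _ hab
    · intro g₁ _ g₂ _ h
      funext a
      have h1 := congrFun (congrFun h (F.connectedComponentMk a))
        ⟨a, (SimpleGraph.ConnectedComponent.mem_supp_iff _ _).mpr rfl⟩
      exact h1
  rw [Fintype.card_piFinset] at hpi
  have hposE : ∀ c : F.ConnectedComponent, 1 ≤ (eds c.toSimpleGraph).card := by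
    intro c
    obtain ⟨a, ha⟩ := c.nonempty_supp
    obtain ⟨b, hab⟩ := hno a
    have hb : b ∈ c.supp := c.mem_supp_of_adj_mem_supp ha hab
    refine Finset.card_pos.mpr ⟨s(⟨a, ha⟩, ⟨b, hb⟩), s_mem_eds.mpr ?_⟩
    exact (c.toSimpleGraph_adj ha hb).mpr hab
  have hcomp : ∀ c : F.ConnectedComponent, ((emb c.toSimpleGraph G).card : ℝ) ≤
      (Fintype.card X : ℝ) ^ (Fintype.card c) * (24 * (Δ : ℝ) * q) ^ (eds c.toSimpleGraph).card :=
    fun c => connected_bound' hq hyp hΔ hΔ1 c.connected_toSimpleGraph (hposE c)
  have hsumV : ∑ c : F.ConnectedComponent, Fintype.card c = Fintype.card W' := by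
    have h1 : (univ : Finset W').card = ∑ c : F.ConnectedComponent,
        ((univ : Finset W').filter (fun a => F.connectedComponentMk a = c)).card :=
      Finset.card_eq_sum_card_fiberwise (fun a _ => Finset.mem_coe.mpr (Finset.mem_univ _))
    rw [Finset.card_univ] at h1
    rw [h1]
    refine Finset.sum_congr rfl fun c _ => ?_
    rw [Fintype.card_subtype]
    congr 1
  have hsumE : (eds F).card ≤ ∑ c : F.ConnectedComponent, (eds c.toSimpleGraph).card := by
    let cmp : Sym2 W' → F.ConnectedComponent := fun e => F.connectedComponentMk (Quot.out e).1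
    have h1 : (eds F).card = ∑ c : F.ConnectedComponent,
        ((eds F).filter (fun e => cmp e = c)).card :=
      Finset.card_eq_sum_card_fiberwise (fun a _ => Finset.mem_coe.mpr (Finset.mem_univ _))
    rw [h1]
    refine Finset.sum_le_sum fun c _ => ?_
    have h2 : (eds F).filter (fun e => cmp e = c) ⊆
        (eds c.toSimpleGraph).image (Sym2.map (Subtype.val)) := by
      intro e he
      obtain ⟨he1, he2⟩ := Finset.mem_filter.mp he
      have h3 : e = s((Quot.out e).1, (Quot.out e).2) := (Quot.out_eq e).symm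
      rw [h3] at he1
      have hadj : F.Adj (Quot.out e).1 (Quot.out e).2 := s_mem_eds.mp he1
      have ha : (Quot.out e).1 ∈ c.supp :=
        (SimpleGraph.ConnectedComponent.mem_supp_iff _ _).mpr he2
      have hb : (Quot.out e).2 ∈ c.supp := c.mem_supp_of_adj_mem_supp ha hadj
      refine Finset.mem_image.mpr ⟨s(⟨_, ha⟩, ⟨_, hb⟩), s_mem_eds.mpr ?_, ?_⟩
      · exact (c.toSimpleGraph_adj ha hb).mpr hadj
      · rw [Sym2.map_mk]
        exact h3.symm
    exact (Finset.card_le_card h2).trans Finset.card_image_le
  have h24 : 0 ≤ 24 * (Δ : ℝ) * q := by positivity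
  calc ((emb F G).card : ℝ) ≤ ((∏ c : F.ConnectedComponent, (emb c.toSimpleGraph G).card : ℕ) : ℝ) := by
        exact_mod_cast hpi
    _ = ∏ c : F.ConnectedComponent, ((emb c.toSimpleGraph G).card : ℝ) := by push_cast; rfl
    _ ≤ ∏ c : F.ConnectedComponent, ((Fintype.card X : ℝ) ^ (Fintype.card c) *
          (24 * (Δ : ℝ) * q) ^ (eds c.toSimpleGraph).card) :=
        Finset.prod_le_prod (fun c _ => Nat.cast_nonneg _) (fun c _ => hcomp c)
    _ = (Fintype.card X : ℝ) ^ (∑ c : F.ConnectedComponent, Fintype.card c) *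
          (24 * (Δ : ℝ) * q) ^ (∑ c : F.ConnectedComponent, (eds c.toSimpleGraph).card) := by
        rw [Finset.prod_mul_distrib, Finset.prod_pow_eq_pow_sum, Finset.prod_pow_eq_pow_sum]
    _ ≤ _ := by
        rw [hsumV]
        apply mul_le_mul_of_nonneg_left _ (by positivity)
        exact pow_le_pow_of_le_one h24 hsmall hsumE

end components

end

end Vale.Agent.P064L
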