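import Vale.Agent.P064L.Step
import Vale.Agent.P064L.Sparse
import Vale.Agent.P064.Main

/-!
# From graphs to edge sets and back
-/

set_option linter.unusedSectionVars false
set_option linter.unusedVariables false
set_option linter.unusedDecidableInType false
set_option linter.unusedFintypeInType false

open Finset
open scoped Classical Nat

namespace Vale.Agent.P064L

noncomputable section

variable {V X W₀ : Type*} [Fintype V] [Fintype X] [Fintype W₀]

/-- Two injective maps differ by a permutation. -/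
lemma exists_perm_comp {A : Type*} (a b : A → X) (ha : Function.Injective a)
    (hb : Function.Injective b) : ∃ σ : Equiv.Perm X, ∀ x, σ (a x) = b x := by
  let e : {x // x ∈ Set.range a} ≃ {x // x ∈ Set.range b} :=
    (Equiv.ofInjective a ha).symm.trans (Equiv.ofInjective b hb)
  refine ⟨e.extendSubtype, fun x => ?_⟩
  rw [Equiv.extendSubtype_apply_of_mem e (a x) ⟨x, rfl⟩]
  have : (Equiv.ofInjective a ha).symm ⟨a x, ⟨x, rfl⟩⟩ = x := by
    rw [Equiv.symm_apply_eq]
    rfl
  simp only [e, Equiv.trans_apply, this]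
  rfl

/-- The number of copies of a graph without isolated vertices in a complete graph is at most the
size of the orbit of its image. -/
lemma copyCount_le_orb {n : ℕ} (A : SimpleGraph W₀) (hno : ∀ a, ∃ b, A.Adj a b)
    (j : Fin n → X) (hj : Function.Injective j) (a₀ : W₀ → X) (ha₀ : Function.Injective a₀) :
    (⊤ : SimpleGraph (Fin n)).copyCount A ≤ (orb (imgE A a₀)).card := by
  unfold SimpleGraph.copyCount
  have hex : ∀ G' : (⊤ : SimpleGraph (Fin n)).Subgraph, Nonempty (A ≃g G'.coe) →
      ∃ f : SimpleGraph.Copy A (⊤ : SimpleGraph (Fin n)), f.toSubgraph = G' := by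
    intro G' hG'
    have : G' ∈ Set.range (SimpleGraph.Copy.toSubgraph (A := A) (B := (⊤ : SimpleGraph (Fin n)))) := by
      rw [SimpleGraph.Copy.range_toSubgraph]
      exact hG'
    exact this
  let E : SimpleGraph.Copy A (⊤ : SimpleGraph (Fin n)) → Finset (Sym2 X) := fun f => imgE A (j ∘ f)
  have hEorb : ∀ f, E f ∈ orb (imgE A a₀) := by
    intro f
    obtain ⟨σ, hσ⟩ := exists_perm_comp a₀ (j ∘ f) ha₀ (hj.comp f.injective)
    refine mem_orb.mpr ⟨σ, ?_⟩
    rw [act_imgE]
    have : (σ : X → X) ∘ a₀ = j ∘ f := funext hσ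
    rw [this]
  have hadjE : ∀ (f : SimpleGraph.Copy A (⊤ : SimpleGraph (Fin n))) (u v : Fin n),
      f.toSubgraph.Adj u v ↔ s(j u, j v) ∈ E f := by
    intro f u v
    simp only [SimpleGraph.Subgraph.map_adj, SimpleGraph.Subgraph.top_adj, Relation.map_apply]
    constructor
    · rintro ⟨a, b, hab, rfl, rfl⟩
      exact Finset.mem_image.mpr ⟨s(a, b), s_mem_eds.mpr hab, rfl⟩
    · intro h
      obtain ⟨e, he, h2⟩ := Finset.mem_image.mp h
      induction e using Sym2.ind with
      | _ a b =>
        have hab : A.Adj a b := s_mem_eds.mp he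
        simp only [Sym2.map_mk, Function.comp_apply] at h2
        rcases Sym2.eq_iff.mp h2 with ⟨h3, h4⟩ | ⟨h3, h4⟩
        · exact ⟨a, b, hab, hj h3, hj h4⟩
        · exact ⟨b, a, hab.symm, hj h4, hj h3⟩
  have hvertsE : ∀ (f : SimpleGraph.Copy A (⊤ : SimpleGraph (Fin n))) (u : Fin n),
      u ∈ f.toSubgraph.verts ↔ ∃ v, f.toSubgraph.Adj u v := by
    intro f u
    constructor
    · intro hu
      simp only [SimpleGraph.Subgraph.map_verts, SimpleGraph.Subgraph.verts_top, Set.image_univ,
        Set.mem_range] at hu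
      obtain ⟨a, rfl⟩ := hu
      obtain ⟨b, hab⟩ := hno a
      refine ⟨f b, ?_⟩
      simp only [SimpleGraph.Subgraph.map_adj, SimpleGraph.Subgraph.top_adj, Relation.map_apply]
      exact ⟨a, b, hab, rfl, rfl⟩
    · rintro ⟨v, hv⟩
      exact f.toSubgraph.edge_vert hv
  have hEinj : ∀ f f', E f = E f' → f.toSubgraph = f'.toSubgraph := by
    intro f f' h
    apply SimpleGraph.Subgraph.ext
    · ext u
      rw [hvertsE, hvertsE]
      simp only [hadjE, h]
    · funext u v
      apply propext
      rw [hadjE, hadjE, h]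
  let pick : (⊤ : SimpleGraph (Fin n)).Subgraph → Finset (Sym2 X) := fun G' =>
    if h : Nonempty (A ≃g G'.coe) then E (hex G' h).choose else ∅
  apply Finset.card_le_card_of_injOn pick
  · intro G' hG'
    have hG'2 : Nonempty (A ≃g G'.coe) := (Finset.mem_filter.mp (Finset.mem_coe.mp hG')).2
    simp only [pick, hG'2, dite_true]
    exact Finset.mem_coe.mpr (hEorb _)
  · intro G₁ h₁ G₂ h₂ hpick
    have h₁' : Nonempty (A ≃g G₁.coe) := (Finset.mem_filter.mp (Finset.mem_coe.mp h₁)).2
    have h₂' : Nonempty (A ≃g G₂.coe) := (Finset.mem_filter.mp (Finset.mem_coe.mp h₂)).2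
    simp only [pick, h₁', h₂', dite_true] at hpick
    have := hEinj _ _ hpick
    rw [(hex G₁ h₁').choose_spec, (hex G₂ h₂').choose_spec] at this
    exact this

/-- The subgraph of `H` with a prescribed edge set. -/
def subOf (H : SimpleGraph V) (ι : V ↪ X) (Z : Finset (Sym2 X)) (hZ : Z ⊆ eds (H.map ι)) :
    H.Subgraph where
  verts := {v | ∃ e ∈ Z, ι v ∈ e}
  Adj a b := s(ι a, ι b) ∈ Z
  adj_sub := by
    intro a b h
    have h1 := s_mem_eds.mp (hZ h)
    rw [SimpleGraph.map_adj] at h1
    obtain ⟨a', b', h2, h3, h4⟩ := h1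
    rw [← ι.injective h3, ← ι.injective h4]
    exact h2
  edge_vert := by
    intro a b h
    exact ⟨_, h, Sym2.mem_mk_left _ _⟩
  symm := ⟨by
    intro a b h
    show s(ι b, ι a) ∈ Z
    rw [Sym2.eq_swap]
    exact h⟩

lemma exists_of_mem_sub {H : SimpleGraph V} {ι : V ↪ X} {Z : Finset (Sym2 X)}
    (hZ : Z ⊆ eds (H.map ι)) {e : Sym2 X} (he : e ∈ Z) :
    ∃ a b, e = s(ι a, ι b) := by
  have h1 := mem_eds.mp (hZ he)
  induction e using Sym2.ind with
  | _ x y =>
    rw [SimpleGraph.mem_edgeSet, SimpleGraph.map_adj] at h1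
    obtain ⟨a, b, _, rfl, rfl⟩ := h1
    exact ⟨a, b, rfl⟩

lemma subOf_imgE {H : SimpleGraph V} {ι : V ↪ X} {Z : Finset (Sym2 X)} (hZ : Z ⊆ eds (H.map ι))
    [Fintype (subOf H ι Z hZ).verts] :
    imgE (subOf H ι Z hZ).coe (fun a => ι a.1) = Z := by
  ext e
  constructor
  · intro h
    obtain ⟨e', he', rfl⟩ := Finset.mem_image.mp h
    induction e' using Sym2.ind with
    | _ a b =>
      have h1 : (subOf H ι Z hZ).coe.Adj a b := s_mem_eds.mp he'
      exact h1
  · intro he
    obtain ⟨a, b, rfl⟩ := exists_of_mem_sub hZ he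
    have ha : a ∈ (subOf H ι Z hZ).verts := ⟨_, he, Sym2.mem_mk_left _ _⟩
    have hb : b ∈ (subOf H ι Z hZ).verts := ⟨_, he, Sym2.mem_mk_right _ _⟩
    refine Finset.mem_image.mpr ⟨s(⟨a, ha⟩, ⟨b, hb⟩), s_mem_eds.mpr ?_, rfl⟩
    exact he

/-- The counting hypothesis in terms of orbits. -/
theorem hyp1_of {H : SimpleGraph V} {n : ℕ} {q : ℝ} (hq : 0 ≤ q) (ι : V ↪ X)
    (j : Fin n → X) (hj : Function.Injective j)
    (hE : ∀ G' : H.Subgraph, (1 / 2 : ℝ) ≤
      (((⊤ : SimpleGraph (Fin n)).copyCount G'.coe : ℕ) : ℝ) * q ^ (G'.coe.edgeSet.ncard)) :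
    Hyp1 (eds (H.map ι)) q := by
  intro Z hZ
  let _ : Fintype (subOf H ι Z hZ).verts := Fintype.ofFinite _
  have h1 := hE (subOf H ι Z hZ)
  have hinj : Function.Injective (fun a : (subOf H ι Z hZ).verts => ι a.1) :=
    fun a b h => Subtype.ext (ι.injective h)
  have himg := subOf_imgE hZ
  have h2 : (subOf H ι Z hZ).coe.edgeSet.ncard = Z.card := by
    rw [← Nat.card_coe_set_eq, card_edges_eq, ← card_imgE _ hinj, himg]
  have hno : ∀ a : (subOf H ι Z hZ).verts, ∃ b, (subOf H ι Z hZ).coe.Adj a b := by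
    rintro ⟨a, e, he, hae⟩
    obtain ⟨a', b', rfl⟩ := exists_of_mem_sub hZ he
    have ha' : a' ∈ (subOf H ι Z hZ).verts := ⟨_, he, Sym2.mem_mk_left _ _⟩
    have hb' : b' ∈ (subOf H ι Z hZ).verts := ⟨_, he, Sym2.mem_mk_right _ _⟩
    have h3 : ι a = ι a' ∨ ι a = ι b' := by simpa using hae
    rcases h3 with h3 | h3
    · refine ⟨⟨b', hb'⟩, ?_⟩
      have h4 := ι.injective h3
      subst h4
      exact he
    · refine ⟨⟨a', ha'⟩, ?_⟩
      have h4 := ι.injective h3
      subst h4
      show s(ι a, ι a') ∈ Z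
      rw [Sym2.eq_swap]
      exact he
  have h3 := copyCount_le_orb (subOf H ι Z hZ).coe hno j hj _ hinj
  rw [himg] at h3
  rw [h2] at h1
  have h4 : (((⊤ : SimpleGraph (Fin n)).copyCount (subOf H ι Z hZ).coe : ℕ) : ℝ) ≤
      ((orb Z).card : ℝ) := by exact_mod_cast h3
  exact h1.trans (mul_le_mul_of_nonneg_right h4 (by positivity))

/-- The number of labelled copies in terms of the count of permutations. -/
theorem card_emb_le_cnt {W' : Type*} [Fintype W'] (F' : SimpleGraph W') (G : SimpleGraph X)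
    (a : W' → X) (ha : Function.Injective a) :
    (emb F' G).card * (Fintype.card X)! ≤
      (Fintype.card X) ^ Fintype.card W' * cnt (eds G) (imgE F' a) := by
  let π : Equiv.Perm X → (W' → X) := fun σ => σ ∘ a
  set s := (univ.filter fun σ : Equiv.Perm X => π σ = a).card with hs
  have hfib : ∀ b : W' → X, Function.Injective b →
      (univ.filter fun σ : Equiv.Perm X => π σ = b).card = s := by
    intro b hb
    obtain ⟨σ₀, hσ₀⟩ := exists_perm_comp a b ha hb
    rw [hs]
    refine Finset.card_bij (fun σ _ => σ₀⁻¹ * σ) ?_ ?_ ?_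
    · intro σ hσ
      simp only [mem_filter, mem_univ, true_and] at hσ ⊢
      funext x
      have h1 := congrFun hσ x
      simp only [π, Function.comp_apply] at h1 ⊢
      rw [Equiv.Perm.mul_apply, h1, ← hσ₀ x]
      simp
    · intro σ₁ _ σ₂ _ h
      exact mul_left_cancel h
    · intro τ hτ
      simp only [mem_filter, mem_univ, true_and] at hτ
      refine ⟨σ₀ * τ, ?_, by simp⟩
      simp only [mem_filter, mem_univ, true_and]
      funext x
      have h1 := congrFun hτ x
      simp only [π, Function.comp_apply] at h1 ⊢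
      rw [Equiv.Perm.mul_apply, h1, hσ₀]
  have h1 : (Fintype.card X)! ≤ (Fintype.card X) ^ Fintype.card W' * s := by
    have h2 : (univ : Finset (Equiv.Perm X)).card =
        ∑ b ∈ (univ : Finset (Equiv.Perm X)).image π,
          (univ.filter fun σ : Equiv.Perm X => π σ = b).card :=
      Finset.card_eq_sum_card_fiberwise (fun σ _ => by
        exact Finset.mem_coe.mpr (Finset.mem_image_of_mem π (Finset.mem_univ σ)))
    rw [Finset.card_univ, Fintype.card_perm] at h2
    rw [h2, Finset.sum_congr rfl (g := fun _ => s), Finset.sum_const, smul_eq_mul]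
    · apply Nat.mul_le_mul_right
      calc _ ≤ (univ : Finset (W' → X)).card := Finset.card_le_card (Finset.subset_univ _)
        _ = _ := by rw [Finset.card_univ, Fintype.card_fun]
    · intro b hb
      obtain ⟨σ, _, rfl⟩ := Finset.mem_image.mp hb
      exact hfib _ (σ.injective.comp ha)
  have h2 : (emb F' G).card * s ≤ cnt (eds G) (imgE F' a) := by
    unfold cnt
    have h3 : (univ.filter fun σ : Equiv.Perm X => π σ ∈ emb F' G) ⊆
        (univ.filter fun σ : Equiv.Perm X => act σ (imgE F' a) ⊆ eds G) := by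
      intro σ hσ
      have h4 := (Finset.mem_filter.mp hσ).2
      refine Finset.mem_filter.mpr ⟨Finset.mem_univ _, ?_⟩
      rw [act_imgE]
      exact imgE_subset h4
    refine le_trans ?_ (Finset.card_le_card h3)
    have h4 : (univ.filter fun σ : Equiv.Perm X => π σ ∈ emb F' G).card =
        ∑ b ∈ emb F' G, ((univ.filter fun σ : Equiv.Perm X => π σ ∈ emb F' G).filter
          fun σ => π σ = b).card :=
      Finset.card_eq_sum_card_fiberwise (fun σ hσ => by
        exact Finset.mem_coe.mpr (Finset.mem_filter.mp (Finset.mem_coe.mp hσ)).2)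
    rw [h4, Finset.sum_congr rfl (g := fun _ => s), Finset.sum_const, smul_eq_mul]
    intro b hb
    rw [← hfib b (mem_emb.mp hb).1]
    congr 1
    ext σ
    simp only [mem_filter, mem_univ, true_and]
    constructor
    · exact fun h => h.2
    · intro h
      exact ⟨h ▸ hb, h⟩
  calc (emb F' G).card * (Fintype.card X)!
      ≤ (emb F' G).card * ((Fintype.card X) ^ Fintype.card W' * s) := Nat.mul_le_mul_left _ h1
    _ = (Fintype.card X) ^ Fintype.card W' * ((emb F' G).card * s) := by ring
    _ ≤ _ := Nat.mul_le_mul_left _ h2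

lemma card_eds_map_le (G : SimpleGraph X) : (eds G).card ≤ (Fintype.card X) ^ 2 := by
  calc (eds G).card ≤ Fintype.card (Sym2 X) := by
        rw [← Finset.card_univ]; exact Finset.card_le_card (Finset.subset_univ _)
    _ ≤ Fintype.card (X × X) :=
        Fintype.card_le_of_surjective (fun p : X × X => s(p.1, p.2)) (fun e => by
          induction e using Sym2.ind with
          | _ a b => exact ⟨(a, b), rfl⟩)
    _ = _ := by rw [Fintype.card_prod, sq]

end

end Vale.Agent.P064L
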