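import Vale.Agent.P064L.Basic

/-!
# The second moment inequality for a maximiser
-/

set_option linter.unusedSectionVars false
set_option linter.unusedVariables false
set_option linter.unusedDecidableInType false
set_option linter.unusedFintypeInType false

open Finset
open scoped Classical Nat

namespace Vale.Agent.P064L

noncomputable section

variable {X : Type*} [Fintype X]

/-- The normalised count `P(σ U ⊆ H) / Q^|U|`. -/
def psi (H : Finset (Sym2 X)) (Q : ℝ) (U : Finset (Sym2 X)) : ℝ :=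
  (cnt H U : ℝ) / ((Fintype.card X)! : ℝ) / Q ^ U.card

lemma factR_pos : (0 : ℝ) < ((Fintype.card X)! : ℝ) := by
  exact_mod_cast Nat.factorial_pos _

lemma psi_nonneg (H : Finset (Sym2 X)) {Q : ℝ} (hQ : 0 < Q) (U : Finset (Sym2 X)) :
    0 ≤ psi H Q U := by
  unfold psi
  have := factR_pos (X := X)
  positivity

lemma psi_act (H : Finset (Sym2 X)) (Q : ℝ) (U : Finset (Sym2 X)) (τ : Equiv.Perm X) :
    psi H Q (act τ U) = psi H Q U := by
  unfold psi
  rw [cnt_act, card_act]

lemma psi_empty (H : Finset (Sym2 X)) (Q : ℝ) : psi H Q ∅ = 1 := by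
  unfold psi
  rw [cnt_empty]
  have := factR_pos (X := X)
  simp only [card_empty, pow_zero, div_one]
  exact div_self this.ne'

lemma card_inv_filter (F S : Finset (Sym2 X)) :
    (univ.filter fun τ : Equiv.Perm X => S ⊆ act τ F).card = cnt F S := by
  unfold cnt
  refine Finset.card_bij (fun τ _ => τ⁻¹) ?_ ?_ ?_
  · intro τ hτ
    simp only [mem_filter, mem_univ, true_and] at hτ ⊢
    intro e he
    obtain ⟨e', he', rfl⟩ := mem_act.mp he
    obtain ⟨e'', he'', rfl⟩ := mem_act.mp (hτ he')
    have : act τ⁻¹ (act τ F) = F := by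
      rw [← act_mul, inv_mul_cancel, act_one]
    rw [← this]
    exact mem_act.mpr ⟨_, mem_act.mpr ⟨e'', he'', rfl⟩, rfl⟩
  · intro a _ b _ h
    exact inv_injective h
  · intro τ hτ
    simp only [mem_filter, mem_univ, true_and] at hτ
    refine ⟨τ⁻¹, ?_, by simp⟩
    simp only [mem_filter, mem_univ, true_and]
    have := act_subset_act τ⁻¹ hτ
    rwa [← act_mul, inv_mul_cancel, act_one] at this
    
/-- The overlap sum is bounded by the sum over subsets. -/
lemma overlap_sum_le (F : Finset (Sym2 X)) {Q : ℝ} (hQ : 0 < Q) :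
    ∑ τ : Equiv.Perm X, (1 : ℝ) / Q ^ (F ∩ act τ F).card ≤
      ∑ S ∈ F.powerset, (cnt F S : ℝ) / Q ^ S.card := by
  have h1 : ∀ τ ∈ (univ : Finset (Equiv.Perm X)), F ∩ act τ F ∈ F.powerset := fun τ _ =>
    Finset.mem_powerset.mpr Finset.inter_subset_left
  rw [← Finset.sum_fiberwise_of_maps_to h1]
  refine Finset.sum_le_sum fun S hS => ?_
  have h2 : ∀ τ ∈ (univ.filter fun τ : Equiv.Perm X => F ∩ act τ F = S),
      (1 : ℝ) / Q ^ (F ∩ act τ F).card = 1 / Q ^ S.card := by
    intro τ hτ
    rw [(Finset.mem_filter.mp hτ).2]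
  rw [Finset.sum_congr rfl h2, Finset.sum_const, nsmul_eq_mul, mul_one_div]
  apply div_le_div_of_nonneg_right _ (by positivity)
  rw [← card_inv_filter]
  have : (univ.filter fun τ : Equiv.Perm X => F ∩ act τ F = S) ⊆
      (univ.filter fun τ : Equiv.Perm X => S ⊆ act τ F) := by
    intro τ hτ
    simp only [mem_filter, mem_univ, true_and] at hτ ⊢
    rw [← hτ]
    exact Finset.inter_subset_right
  exact_mod_cast Finset.card_le_card this

/-- **The second moment inequality.**  For a maximiser `F` of `psi H Q`, with positive value, that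
maximum is at most the sum of `psi F Q` over the subsets of `F`. -/
theorem psi_le_sum {H F : Finset (Sym2 X)} {Q : ℝ} (hQ : 0 < Q)
    (hmax : ∀ U, psi H Q U ≤ psi H Q F) (hpos : 0 < psi H Q F) :
    psi H Q F ≤ ∑ S ∈ F.powerset, psi F Q S := by
  set P := psi H Q F with hP
  set n : ℝ := ((Fintype.card X)! : ℝ) with hn
  have hn0 : 0 < n := factR_pos
  have hcntF : (cnt H F : ℝ) = P * n * Q ^ F.card := by
    rw [hP]; unfold psi
    rw [← hn]
    field_simp
  have hU : ∀ U, (cnt H U : ℝ) ≤ P * n * Q ^ U.card := by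
    intro U
    have := hmax U
    unfold psi at this
    rw [← hn] at this
    have hQU : 0 < Q ^ U.card := by positivity
    rw [div_div, div_le_iff₀ (by positivity)] at this
    linarith [this, mul_assoc P n (Q ^ U.card)]
  have hcard : ∀ τ : Equiv.Perm X, (F ∪ act τ F).card + (F ∩ act τ F).card = 2 * F.card := by
    intro τ
    rw [Finset.card_union_add_card_inter, card_act]; ring
  have hτ : ∀ τ : Equiv.Perm X, (cnt H (F ∪ act τ F) : ℝ) ≤
      P * n * Q ^ (2 * F.card) * (1 / Q ^ (F ∩ act τ F).card) := by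
    intro τ
    have h1 := hU (F ∪ act τ F)
    have h2 : Q ^ (2 * F.card) = Q ^ (F ∪ act τ F).card * Q ^ (F ∩ act τ F).card := by
      rw [← pow_add, hcard]
    rw [h2]
    have h3 : 0 < Q ^ (F ∩ act τ F).card := by positivity
    field_simp
    field_simp at h1
    linarith
  have hsq : ((cnt H F : ℝ)) ^ 2 = ∑ τ : Equiv.Perm X, (cnt H (F ∪ act τ F) : ℝ) := by
    exact_mod_cast cnt_sq H F
  have h2 : (P * n * Q ^ F.card) ^ 2 ≤
      P * n * Q ^ (2 * F.card) * ∑ τ : Equiv.Perm X, (1 : ℝ) / Q ^ (F ∩ act τ F).card := by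
    rw [← hcntF, hsq, Finset.mul_sum]
    exact Finset.sum_le_sum fun τ _ => hτ τ
  have h3 : P * n ≤ ∑ τ : Equiv.Perm X, (1 : ℝ) / Q ^ (F ∩ act τ F).card := by
    have h4 : 0 < P * n * Q ^ (2 * F.card) := by positivity
    have h5 : (P * n * Q ^ F.card) ^ 2 = P * n * Q ^ (2 * F.card) * (P * n) := by
      rw [mul_pow, mul_pow, pow_mul]; ring
    rw [h5] at h2
    exact le_of_mul_le_mul_left h2 h4
  have h6 := overlap_sum_le F hQ
  have h7 : ∑ S ∈ F.powerset, psi F Q S = (∑ S ∈ F.powerset, (cnt F S : ℝ) / Q ^ S.card) / n := by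
    rw [Finset.sum_div]
    refine Finset.sum_congr rfl fun S _ => ?_
    unfold psi
    rw [div_div, div_div, mul_comm]
  rw [h7, le_div_iff₀ hn0]
  linarith

end

end Vale.Agent.P064L
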