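import Vale.Agent.P064L.Swap

/-!
# Peeling low degree vertices
-/

set_option linter.unusedSectionVars false
set_option linter.unusedVariables false
set_option linter.unusedDecidableInType false
set_option linter.unusedFintypeInType false

open Finset
open scoped Classical Nat

namespace Vale.Agent.P064L

noncomputable section

variable {X : Type*} [Fintype X]

/-- All nonzero degrees are at least `β`. -/
def MinDeg (β : ℕ) (Z : Finset (Sym2 X)) : Prop := ∀ u, (star Z u).card = 0 ∨ β ≤ (star Z u).card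

/-- One peeling step. -/
lemma psi_step {F S : Finset (Sym2 X)} {Q x : ℝ} (hQ : 0 < Q) (hx : 0 ≤ x)
    (hF : NoLoop F) (hsupp : 2 * (supp F).card ≤ Fintype.card X) (hS : S ⊆ F) (u : X)
    (hCod : ∀ B : Finset X, B.card = (star S u).card →
      2 * ((cn F B).card : ℝ) ≤ (Fintype.card X : ℝ) * (Q * x) ^ (star S u).card) :
    psi F Q S ≤ psi F Q (del S u) * x ^ (star S u).card := by
  have hSl : NoLoop S := hF.mono hS
  set b := (star S u).card with hb
  set T := supp (del S u) ∪ nbr S u with hT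
  have hTF : T ⊆ supp F := by
    apply Finset.union_subset
    · exact supp_mono ((del_subset S u).trans hS)
    · exact (nbr_subset_supp S u).trans (supp_mono hS)
  have hTcard : 2 * T.card ≤ Fintype.card X := by
    have := Finset.card_le_card hTF
    omega
  have hNpos : (0 : ℝ) < (Fintype.card X : ℝ) := by
    have : 0 < Fintype.card X := Fintype.card_pos_iff.mpr ⟨u⟩
    exact_mod_cast this
  have h1 := swap_bound F S u hSl
  rw [← hT] at h1
  have h2 : ((cnt F S : ℝ)) * ((Fintype.card X : ℝ) / 2) ≤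
      ((cnt F S * (Fintype.card X - T.card) : ℕ) : ℝ) := by
    push_cast
    apply mul_le_mul_of_nonneg_left _ (Nat.cast_nonneg _)
    have h3 : ((Fintype.card X - T.card : ℕ) : ℝ) = (Fintype.card X : ℝ) - (T.card : ℝ) := by
      rw [Nat.cast_sub (by omega)]
    rw [h3]
    have h4 : 2 * (T.card : ℝ) ≤ (Fintype.card X : ℝ) := by exact_mod_cast hTcard
    linarith
  have h5 : ((∑ τ' ∈ univ.filter (fun τ' : Equiv.Perm X => act τ' (del S u) ⊆ F),
        (cn F ((nbr S u).image τ')).card : ℕ) : ℝ) ≤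
      (cnt F (del S u) : ℝ) * ((Fintype.card X : ℝ) * (Q * x) ^ b / 2) := by
    push_cast
    calc _ ≤ ∑ τ' ∈ univ.filter (fun τ' : Equiv.Perm X => act τ' (del S u) ⊆ F),
          ((Fintype.card X : ℝ) * (Q * x) ^ b / 2) := by
          refine Finset.sum_le_sum fun τ' _ => ?_
          have h6 : ((nbr S u).image τ').card = b := by
            rw [Finset.card_image_of_injective _ τ'.injective, card_nbr hSl, hb]
          have := hCod _ h6
          linarith
      _ = _ := by
          rw [Finset.sum_const, nsmul_eq_mul]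
          rfl
  have h7 : (cnt F S : ℝ) ≤ (cnt F (del S u) : ℝ) * (Q * x) ^ b := by
    have h8 : (cnt F S : ℝ) * ((Fintype.card X : ℝ) / 2) ≤
        (cnt F (del S u) : ℝ) * ((Q * x) ^ b) * ((Fintype.card X : ℝ) / 2) := by
      calc _ ≤ _ := h2
        _ ≤ _ := by exact_mod_cast h1
        _ ≤ _ := h5
        _ = _ := by ring
    exact le_of_mul_le_mul_right h8 (by positivity)
  have hcard : S.card = b + (del S u).card := (card_star_add_del S u).symm
  unfold psi
  rw [hcard, pow_add]
  have hn : (0 : ℝ) < ((Fintype.card X)! : ℝ) := factR_pos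
  have hQ1 : 0 < Q ^ b := by positivity
  have hQ2 : 0 < Q ^ (del S u).card := by positivity
  rw [mul_pow] at h7
  rw [div_div, div_div, div_le_iff₀ (by positivity)]
  have h9 : (cnt F (del S u) : ℝ) / (((Fintype.card X)! : ℝ) * Q ^ (del S u).card) * x ^ b *
      (((Fintype.card X)! : ℝ) * (Q ^ b * Q ^ (del S u).card)) =
      (cnt F (del S u) : ℝ) * (Q ^ b * x ^ b) := by
    field_simp
  rw [h9]
  exact h7

/-- Every edge set has a subset with all nonzero degrees large, at no cost. -/
lemma exists_core {F : Finset (Sym2 X)} {Q x : ℝ} {β : ℕ} (hQ : 0 < Q) (hx : 0 ≤ x)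
    (hF : NoLoop F) (hsupp : 2 * (supp F).card ≤ Fintype.card X)
    (hCod : ∀ b, 1 ≤ b → b < β → ∀ B : Finset X, B.card = b →
      2 * ((cn F B).card : ℝ) ≤ (Fintype.card X : ℝ) * (Q * x) ^ b) (S : Finset (Sym2 X)) :
    S ⊆ F → ∃ Z, Z ⊆ S ∧ MinDeg β Z ∧ psi F Q S ≤ psi F Q Z * x ^ (S.card - Z.card) := by
  induction S using Finset.strongInduction with
  | H S ih =>
    intro hS
    by_cases hmin : MinDeg β S
    · exact ⟨S, Subset.refl _, hmin, by simp⟩
    · unfold MinDeg at hmin
      push Not at hmin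
      obtain ⟨u, hu0, huβ⟩ := hmin
      have hpos : 1 ≤ (star S u).card := Nat.one_le_iff_ne_zero.mpr hu0
      have hss : del S u ⊂ S := by
        refine Finset.ssubset_iff_subset_ne.mpr ⟨del_subset S u, ?_⟩
        intro h
        have h2 := card_star_add_del S u
        rw [h] at h2
        omega
      obtain ⟨Z, hZ, hZm, hZb⟩ := ih _ hss ((del_subset S u).trans hS)
      refine ⟨Z, hZ.trans (del_subset S u), hZm, ?_⟩
      have h1 := psi_step hQ hx hF hsupp hS u (hCod _ hpos huβ)
      have h2 := card_star_add_del S u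
      have h3 := Finset.card_le_card hZ
      have h4 : S.card - Z.card = ((del S u).card - Z.card) + (star S u).card := by omega
      rw [h4, pow_add, ← mul_assoc]
      exact h1.trans (mul_le_mul_of_nonneg_right hZb (by positivity))

/-- The sets with all nonzero degrees large. -/
def DD (β : ℕ) (F : Finset (Sym2 X)) : Finset (Finset (Sym2 X)) :=
  F.powerset.filter (MinDeg β)

lemma sum_pow_powerset (F : Finset (Sym2 X)) (x : ℝ) :
    ∑ E ∈ F.powerset, x ^ E.card = (1 + x) ^ F.card := by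
  have := Finset.sum_pow_mul_eq_add_pow x 1 F
  simp only [one_pow, mul_one] at this
  rw [this, add_comm]

/-- The full sum is bounded by the sum over cores. -/
lemma sum_le_core {F : Finset (Sym2 X)} {Q x : ℝ} {β : ℕ} (hQ : 0 < Q) (hx : 0 ≤ x)
    (hF : NoLoop F) (hsupp : 2 * (supp F).card ≤ Fintype.card X)
    (hCod : ∀ b, 1 ≤ b → b < β → ∀ B : Finset X, B.card = b →
      2 * ((cn F B).card : ℝ) ≤ (Fintype.card X : ℝ) * (Q * x) ^ b) :
    ∑ S ∈ F.powerset, psi F Q S ≤ (∑ Z ∈ DD β F, psi F Q Z) * (1 + x) ^ F.card := by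
  have hcore := fun S => exists_core (F := F) hQ hx hF hsupp hCod S
  choose! c hc1 hc2 hc3 using hcore
  have hmaps : ∀ S ∈ F.powerset, c S ∈ DD β F := by
    intro S hS
    have hS' : S ⊆ F := Finset.mem_powerset.mp hS
    exact Finset.mem_filter.mpr
      ⟨Finset.mem_powerset.mpr ((hc1 S hS').trans hS'), hc2 S hS'⟩
  calc ∑ S ∈ F.powerset, psi F Q S
      ≤ ∑ S ∈ F.powerset, psi F Q (c S) * x ^ (S.card - (c S).card) :=
        Finset.sum_le_sum fun S hS => hc3 S (Finset.mem_powerset.mp hS)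
    _ = ∑ Z ∈ DD β F, ∑ S ∈ F.powerset with c S = Z, psi F Q (c S) * x ^ (S.card - (c S).card) :=
        (Finset.sum_fiberwise_of_maps_to hmaps _).symm
    _ ≤ ∑ Z ∈ DD β F, psi F Q Z * (1 + x) ^ F.card := by
        refine Finset.sum_le_sum fun Z _ => ?_
        have h1 : ∀ S ∈ F.powerset.filter (fun S => c S = Z),
            psi F Q (c S) * x ^ (S.card - (c S).card) = psi F Q Z * x ^ (S \ Z).card := by
          intro S hS
          obtain ⟨hS1, hS2⟩ := Finset.mem_filter.mp hS
          rw [hS2, Finset.card_sdiff_of_subset]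
          rw [← hS2]
          exact hc1 S (Finset.mem_powerset.mp hS1)
        rw [Finset.sum_congr rfl h1, ← Finset.mul_sum, ← sum_pow_powerset]
        apply mul_le_mul_of_nonneg_left _ (psi_nonneg F hQ Z)
        have hinj : Set.InjOn (fun S => S \ Z) (F.powerset.filter (fun S => c S = Z) : Set _) := by
          intro S hS S' hS' h
          have a1 := Finset.mem_filter.mp (Finset.mem_coe.mp hS)
          have a2 := Finset.mem_filter.mp (Finset.mem_coe.mp hS')
          have b1 : Z ⊆ S := a1.2 ▸ hc1 S (Finset.mem_powerset.mp a1.1)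
          have b2 : Z ⊆ S' := a2.2 ▸ hc1 S' (Finset.mem_powerset.mp a2.1)
          have := congrArg (· ∪ Z) h
          simpa [Finset.sdiff_union_of_subset b1, Finset.sdiff_union_of_subset b2] using this
        rw [← Finset.sum_image (f := fun E => x ^ E.card) hinj]
        apply Finset.sum_le_sum_of_subset_of_nonneg
        · intro E hE
          obtain ⟨S, hS, rfl⟩ := Finset.mem_image.mp hE
          have a1 := Finset.mem_filter.mp hS
          exact Finset.mem_powerset.mpr ((Finset.sdiff_subset).trans (Finset.mem_powerset.mp a1.1))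
        · intro E _ _
          positivity
    _ = _ := by rw [Finset.sum_mul]

/-- The counting hypothesis on orbits. -/
def Hyp1 (H : Finset (Sym2 X)) (q : ℝ) : Prop :=
  ∀ Z, Z ⊆ H → (1 / 2 : ℝ) ≤ ((orb Z).card : ℝ) * q ^ Z.card

lemma MinDeg.act {β : ℕ} {Z : Finset (Sym2 X)} (h : MinDeg β Z) (σ : Equiv.Perm X) :
    MinDeg β (act σ Z) := by
  intro u
  rw [card_star_act]
  exact h _

/-- The bound on the core sum. -/
lemma core_sum_le {F : Finset (Sym2 X)} {L q z : ℝ} {β : ℕ} (hq : 0 < q) (hL : 0 < L) (hz : 0 ≤ z)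
    (hzL : z ^ 2 * L = 1) (hyp : ∀ Z, Z ⊆ F → (1 / 2 : ℝ) ≤ ((orb Z).card : ℝ) * q ^ Z.card) :
    ∑ Z ∈ DD β F, psi F (L * q) Z ≤ 2 * (∑ Z ∈ DD β F, z ^ Z.card) ^ 2 := by
  have h1 : ∀ Z ∈ DD β F, psi F (L * q) Z ≤ 2 * ∑ Z' ∈ DD β F, z ^ Z.card * z ^ Z'.card := by
    intro Z hZ
    obtain ⟨hZ1, hZ2⟩ := Finset.mem_filter.mp hZ
    have hZF : Z ⊆ F := Finset.mem_powerset.mp hZ1
    have hyp1 := hyp Z hZF
    have horb : (0 : ℝ) < ((orb Z).card : ℝ) := by
      have : (orb Z).Nonempty := ⟨Z, mem_orb.mpr ⟨1, act_one Z⟩⟩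
      exact_mod_cast this.card_pos
    have hqZ : 0 < q ^ Z.card := by positivity
    have h2 : (1 : ℝ) / ((orb Z).card : ℝ) ≤ 2 * q ^ Z.card := by
      rw [div_le_iff₀ horb]
      linarith
    have h3 : psi F (L * q) Z = (cnt F Z : ℝ) / ((Fintype.card X)! : ℝ) / (L * q) ^ Z.card := rfl
    have h4 : (z ^ Z.card) ^ 2 * L ^ Z.card = 1 := by
      rw [← pow_mul, mul_comm Z.card 2, pow_mul, ← mul_pow, hzL, one_pow]
    have h5 : psi F (L * q) Z ≤ 2 * (((orb Z).filter (· ⊆ F)).card : ℝ) * (z ^ Z.card) ^ 2 := by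
      rw [h3, cnt_div_eq, mul_pow]
      have hLZ : 0 < L ^ Z.card := by positivity
      have h6 : (z ^ Z.card) ^ 2 = 1 / L ^ Z.card := by
        field_simp
        linarith
      rw [h6]
      have h7 : (((orb Z).filter (· ⊆ F)).card : ℝ) / ((orb Z).card : ℝ) =
          (((orb Z).filter (· ⊆ F)).card : ℝ) * (1 / ((orb Z).card : ℝ)) := by ring
      rw [h7]
      have h8 : (((orb Z).filter (· ⊆ F)).card : ℝ) * (1 / ((orb Z).card : ℝ)) ≤
          (((orb Z).filter (· ⊆ F)).card : ℝ) * (2 * q ^ Z.card) :=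
        mul_le_mul_of_nonneg_left h2 (Nat.cast_nonneg _)
      calc _ ≤ (((orb Z).filter (· ⊆ F)).card : ℝ) * (2 * q ^ Z.card) / (L ^ Z.card * q ^ Z.card) :=
            div_le_div_of_nonneg_right h8 (by positivity)
        _ = _ := by field_simp
    refine h5.trans ?_
    have h9 : (((orb Z).filter (· ⊆ F)).card : ℝ) * (z ^ Z.card) ^ 2 =
        ∑ Z' ∈ (orb Z).filter (· ⊆ F), z ^ Z.card * z ^ Z'.card := by
      rw [Finset.sum_congr rfl (g := fun _ => (z ^ Z.card) ^ 2), Finset.sum_const, nsmul_eq_mul]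
      intro Z' hZ'
      rw [card_mem_orb (Finset.mem_filter.mp hZ').1, sq]
    rw [mul_assoc, h9]
    apply mul_le_mul_of_nonneg_left _ (by norm_num)
    apply Finset.sum_le_sum_of_subset_of_nonneg
    · intro Z' hZ'
      obtain ⟨a1, a2⟩ := Finset.mem_filter.mp hZ'
      obtain ⟨σ, rfl⟩ := mem_orb.mp a1
      exact Finset.mem_filter.mpr ⟨Finset.mem_powerset.mpr a2, hZ2.act σ⟩
    · intro _ _ _
      positivity
  calc ∑ Z ∈ DD β F, psi F (L * q) Z
      ≤ ∑ Z ∈ DD β F, 2 * ∑ Z' ∈ DD β F, z ^ Z.card * z ^ Z'.card :=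
        Finset.sum_le_sum h1
    _ = _ := by
        rw [← Finset.mul_sum, sq, Finset.sum_mul_sum]

end

end Vale.Agent.P064L
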