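import Vale.Agent.P064L.Peel

/-!
# Generating functions of subgraphs of large minimum degree
-/

set_option linter.unusedSectionVars false
set_option linter.unusedVariables false
set_option linter.unusedDecidableInType false
set_option linter.unusedFintypeInType false

open Finset
open scoped Classical Nat

namespace Vale.Agent.P064L

noncomputable section

variable {X : Type*} [Fintype X]

/-- Every nonempty subset has a vertex of positive degree at most `κ`. -/
def Degen (κ : ℕ) (F : Finset (Sym2 X)) : Prop :=
  ∀ F', F' ⊆ F → F'.Nonempty → ∃ u, (star F' u).Nonempty ∧ (star F' u).card ≤ κ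

lemma Degen.mono {κ : ℕ} {F F' : Finset (Sym2 X)} (h : Degen κ F) (hF : F' ⊆ F) : Degen κ F' :=
  fun F'' h1 h2 => h F'' (h1.trans hF) h2

lemma Degen.mono_right {κ κ' : ℕ} {F : Finset (Sym2 X)} (h : Degen κ F) (hκ : κ ≤ κ') :
    Degen κ' F := fun F'' h1 h2 => by
  obtain ⟨u, hu1, hu2⟩ := h F'' h1 h2
  exact ⟨u, hu1, hu2.trans hκ⟩

lemma star_union_eq {F O Z' : Finset (Sym2 X)} {u : X} (hO : O ⊆ star F u) (hZ : Z' ⊆ del F u) :
    star (O ∪ Z') u = O := by
  ext e
  simp only [star, mem_filter, mem_union]
  constructor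
  · rintro ⟨h | h, h2⟩
    · exact h
    · exact absurd h2 (Finset.mem_filter.mp (hZ h)).2
  · intro h
    exact ⟨Or.inl h, (Finset.mem_filter.mp (hO h)).2⟩

lemma del_union_eq {F O Z' : Finset (Sym2 X)} {u : X} (hO : O ⊆ star F u) (hZ : Z' ⊆ del F u) :
    del (O ∪ Z') u = Z' := by
  ext e
  simp only [del, mem_filter, mem_union]
  constructor
  · rintro ⟨h | h, h2⟩
    · exact absurd (Finset.mem_filter.mp (hO h)).2 h2
    · exact h
  · intro h
    exact ⟨Or.inr h, (Finset.mem_filter.mp (hZ h)).2⟩

lemma star_union_del (Z : Finset (Sym2 X)) (u : X) : star Z u ∪ del Z u = Z := by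
  ext e
  simp only [star, del, mem_union, mem_filter]
  tauto

lemma star_mono {Z F : Finset (Sym2 X)} (h : Z ⊆ F) (u : X) : star Z u ⊆ star F u :=
  Finset.filter_subset_filter _ h

lemma del_mono {Z F : Finset (Sym2 X)} (h : Z ⊆ F) (u : X) : del Z u ⊆ del F u :=
  Finset.filter_subset_filter _ h

lemma card_union_split {F O Z' : Finset (Sym2 X)} {u : X} (hO : O ⊆ star F u)
    (hZ : Z' ⊆ del F u) : (O ∪ Z').card = O.card + Z'.card := by
  apply Finset.card_union_of_disjoint
  rw [Finset.disjoint_left]
  intro e h1 h2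
  exact (Finset.mem_filter.mp (hZ h2)).2 (Finset.mem_filter.mp (hO h1)).2

/-- Splitting a sum over subsets at a vertex. -/
lemma sum_powerset_split (F : Finset (Sym2 X)) (u : X) (f : Finset (Sym2 X) → ℝ) :
    ∑ Z ∈ F.powerset, f Z = ∑ O ∈ (star F u).powerset, ∑ Z' ∈ (del F u).powerset, f (O ∪ Z') := by
  rw [← Finset.sum_product' (f := fun O Z' => f (O ∪ Z'))]
  symm
  refine Finset.sum_bij' (fun p _ => p.1 ∪ p.2) (fun Z _ => (star Z u, del Z u)) ?_ ?_ ?_ ?_ ?_
  · rintro ⟨O, Z'⟩ h
    obtain ⟨h1, h2⟩ := Finset.mem_product.mp h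
    refine Finset.mem_powerset.mpr (Finset.union_subset ?_ ?_)
    · exact (Finset.mem_powerset.mp h1).trans (star_subset F u)
    · exact (Finset.mem_powerset.mp h2).trans (del_subset F u)
  · intro Z h
    have hZ := Finset.mem_powerset.mp h
    exact Finset.mem_product.mpr ⟨Finset.mem_powerset.mpr (star_mono hZ u),
      Finset.mem_powerset.mpr (del_mono hZ u)⟩
  · rintro ⟨O, Z'⟩ h
    obtain ⟨h1, h2⟩ := Finset.mem_product.mp h
    have a1 := Finset.mem_powerset.mp h1
    have a2 := Finset.mem_powerset.mp h2
    simp only [star_union_eq a1 a2, del_union_eq a1 a2]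
  · intro Z _
    simp only [star_union_del]
  · rintro ⟨O, Z'⟩ _
    rfl

lemma del_ssubset {F : Finset (Sym2 X)} {u : X} (h : (star F u).Nonempty) : del F u ⊂ F := by
  refine Finset.ssubset_iff_subset_ne.mpr ⟨del_subset F u, ?_⟩
  intro h2
  have h3 := card_star_add_del F u
  have h4 := h.card_pos
  rw [h2] at h3
  omega

lemma card_supp_del_lt {F : Finset (Sym2 X)} {u : X} (h : (star F u).Nonempty) :
    (supp (del F u)).card + 1 ≤ (supp F).card := by
  have h1 := Finset.card_le_card (supp_del_subset F u)
  rw [Finset.card_erase_of_mem (mem_supp_of_star h)] at h1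
  have h2 : 0 < (supp F).card := Finset.card_pos.mpr ⟨u, mem_supp_of_star h⟩
  omega

/-- The weighted sum over all subsets. -/
lemma chern_sum {y s : ℝ} {κ : ℕ} (hy : 0 ≤ y) (hs0 : 0 ≤ s) (hs1 : s ≤ 1) (F : Finset (Sym2 X)) :
    Degen κ F → ∑ Z ∈ F.powerset, y ^ Z.card * s ^ (supp Z).card ≤
      (1 + s * ((1 + y) ^ κ - 1)) ^ (supp F).card := by
  have hμ : 1 ≤ 1 + s * ((1 + y) ^ κ - 1) := by
    have : 1 ≤ (1 + y) ^ κ := one_le_pow₀ (by linarith)
    have : 0 ≤ s * ((1 + y) ^ κ - 1) := mul_nonneg hs0 (by linarith)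
    linarith
  induction F using Finset.strongInduction with
  | H F ih =>
    intro hD
    rcases F.eq_empty_or_nonempty with rfl | hne
    · simp [supp]
    obtain ⟨u, hu1, hu2⟩ := hD F (Subset.refl _) hne
    have hss := del_ssubset hu1
    have hIH := ih _ hss (hD.mono (del_subset F u))
    rw [sum_powerset_split F u]
    set F' := del F u with hF'
    set T := ∑ Z ∈ F'.powerset, y ^ Z.card * s ^ (supp Z).card with hT
    have hT0 : 0 ≤ T := Finset.sum_nonneg fun _ _ => by positivity
    have h1 : ∀ O ∈ (star F u).powerset,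
        ∑ Z' ∈ F'.powerset, y ^ (O ∪ Z').card * s ^ (supp (O ∪ Z')).card ≤
          (y ^ O.card * (if O = ∅ then 1 else s)) * T := by
      intro O hO
      have hO' := Finset.mem_powerset.mp hO
      rw [hT, Finset.mul_sum]
      refine Finset.sum_le_sum fun Z' hZ' => ?_
      have hZ := Finset.mem_powerset.mp hZ'
      rw [card_union_split hO' hZ, pow_add]
      have h2 : s ^ (supp (O ∪ Z')).card ≤ (if O = ∅ then 1 else s) * s ^ (supp Z').card := by
        split_ifs with hOe
        · subst hOe
          simp
        · have h3 : (supp Z').card + 1 ≤ (supp (O ∪ Z')).card := by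
            obtain ⟨e, he⟩ := Finset.nonempty_iff_ne_empty.mpr hOe
            have hue : u ∈ e := (Finset.mem_filter.mp (hO' he)).2
            have h4 : u ∈ supp (O ∪ Z') :=
              mem_supp.mpr ⟨e, Finset.mem_union_left _ he, hue⟩
            have h5 : u ∉ supp Z' := fun h6 =>
              not_mem_supp_del F u (supp_mono hZ h6)
            have h6 : insert u (supp Z') ⊆ supp (O ∪ Z') := by
              apply Finset.insert_subset h4
              exact supp_mono Finset.subset_union_right
            have := Finset.card_le_card h6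
            rwa [Finset.card_insert_of_notMem h5] at this
          calc s ^ (supp (O ∪ Z')).card ≤ s ^ ((supp Z').card + 1) :=
                pow_le_pow_of_le_one hs0 hs1 h3
            _ = s * s ^ (supp Z').card := by rw [pow_succ]; ring
      calc y ^ O.card * y ^ Z'.card * s ^ (supp (O ∪ Z')).card
          ≤ y ^ O.card * y ^ Z'.card * ((if O = ∅ then 1 else s) * s ^ (supp Z').card) :=
            mul_le_mul_of_nonneg_left h2 (by positivity)
        _ = _ := by ring
    have h2 : ∑ O ∈ (star F u).powerset, (y ^ O.card * (if O = ∅ then 1 else s)) =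
        1 + s * ((1 + y) ^ (star F u).card - 1) := by
      have h3 : ∀ O ∈ (star F u).powerset, y ^ O.card * (if O = ∅ then 1 else s) =
          s * y ^ O.card + (if O = ∅ then 1 - s else 0) := by
        intro O _
        split_ifs with hOe
        · subst hOe
          simp
        · ring
      rw [Finset.sum_congr rfl h3, Finset.sum_add_distrib, ← Finset.mul_sum, sum_pow_powerset,
        Finset.sum_ite_eq' ]
      simp only [Finset.mem_powerset, Finset.empty_subset, if_true]
      ring
    have h3 : (1 + s * ((1 + y) ^ (star F u).card - 1)) ≤ 1 + s * ((1 + y) ^ κ - 1) := by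
      have : (1 + y) ^ (star F u).card ≤ (1 + y) ^ κ :=
        pow_le_pow_right₀ (by linarith) hu2
      have := mul_le_mul_of_nonneg_left this hs0
      linarith
    calc _ ≤ ∑ O ∈ (star F u).powerset, (y ^ O.card * (if O = ∅ then 1 else s)) * T :=
          Finset.sum_le_sum h1
      _ = (1 + s * ((1 + y) ^ (star F u).card - 1)) * T := by rw [← Finset.sum_mul, h2]
      _ ≤ (1 + s * ((1 + y) ^ κ - 1)) * (1 + s * ((1 + y) ^ κ - 1)) ^ (supp F').card := by
          apply mul_le_mul h3 hIH hT0 (by linarith)
      _ = (1 + s * ((1 + y) ^ κ - 1)) ^ ((supp F').card + 1) := by rw [pow_succ]; ring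
      _ ≤ _ := pow_le_pow_right₀ hμ (card_supp_del_lt hu1)

/-- The edge count dominates the support. -/
lemma card_supp_mul_le {β : ℕ} {Z : Finset (Sym2 X)} (h : MinDeg β Z) :
    β * (supp Z).card ≤ 2 * Z.card := by
  have h1 : ∑ u ∈ supp Z, (star Z u).card = ∑ e ∈ Z, ((supp Z).filter (fun u => u ∈ e)).card :=
    Finset.sum_card_bipartiteAbove_eq_sum_card_bipartiteBelow (fun u e => u ∈ e)
  have h2 : ∑ e ∈ Z, ((supp Z).filter (fun u => u ∈ e)).card ≤ ∑ e ∈ Z, 2 := by
    refine Finset.sum_le_sum fun e _ => ?_
    have h3 : (supp Z).filter (fun u => u ∈ e) ⊆ e.toFinset := by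
      intro u hu
      exact Sym2.mem_toFinset.mpr (Finset.mem_filter.mp hu).2
    refine (Finset.card_le_card h3).trans ?_
    rw [Sym2.card_toFinset]
    split_ifs <;> omega
  have h4 : ∑ u ∈ supp Z, β ≤ ∑ u ∈ supp Z, (star Z u).card := by
    refine Finset.sum_le_sum fun u hu => ?_
    rcases h u with h5 | h5
    · have := (star_nonempty_of_mem_supp hu).card_pos
      omega
    · exact h5
  simp only [Finset.sum_const, smul_eq_mul] at h2 h4
  rw [h1] at h4
  nlinarith

/-- A sum over sets with no vertex of degree one outside `Y`, first form. -/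
def gY (z : ℝ) (Y : Finset X) (Z : Finset (Sym2 X)) : ℝ :=
  if ∀ v, v ∉ Y → (star Z v).card ≠ 1 then z ^ Z.card else 0

lemma gY_nonneg {z : ℝ} (hz : 0 ≤ z) (Y : Finset X) (Z : Finset (Sym2 X)) : 0 ≤ gY z Y Z := by
  unfold gY
  split_ifs <;> positivity

lemma sum_card_one (A : Finset (Sym2 X)) (a : ℝ) :
    ∑ O ∈ A.powerset, (if O.card ≠ 1 then a ^ O.card else 0) = (1 + a) ^ A.card - A.card * a := by
  have h1 : ∀ O ∈ A.powerset, (if O.card ≠ 1 then a ^ O.card else 0) =
      a ^ O.card - (if O.card = 1 then a else 0) := by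
    intro O _
    by_cases h : O.card = 1
    · simp [h]
    · simp [h]
  rw [Finset.sum_congr rfl h1, Finset.sum_sub_distrib, sum_pow_powerset]
  congr 1
  rw [← Finset.sum_filter]
  have h2 : A.powerset.filter (fun O => O.card = 1) = Finset.powersetCard 1 A := by
    rw [Finset.powersetCard_eq_filter]
  rw [h2, Finset.sum_const, Finset.card_powersetCard, Nat.choose_one_right, nsmul_eq_mul]

lemma mono_pow_sub {a : ℝ} (ha : 0 ≤ a) {d κ : ℕ} (h : d ≤ κ) :
    (1 + a) ^ d - d * a ≤ (1 + a) ^ κ - κ * a := by
  induction κ, h using Nat.le_induction with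
  | base => exact le_refl _
  | succ κ _ ih =>
    have h1 : 1 ≤ (1 + a) ^ κ := one_le_pow₀ (by linarith)
    have h2 : (1 + a) ^ (κ + 1) = (1 + a) ^ κ + a * (1 + a) ^ κ := by rw [pow_succ]; ring
    have h3 : a ≤ a * (1 + a) ^ κ := le_mul_of_one_le_right ha h1
    push_cast
    rw [h2]
    linarith

lemma card_inter_erase_le {O : Finset (Sym2 X)} {u : X} (hO : ∀ e ∈ O, u ∈ e) :
    ((supp O).erase u).card ≤ O.card := by
  have h1 : (supp O).erase u ⊆ O.biUnion (fun e => e.toFinset.erase u) := by
    intro v hv
    obtain ⟨hv1, hv2⟩ := Finset.mem_erase.mp hv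
    obtain ⟨e, he, hve⟩ := mem_supp.mp hv2
    exact Finset.mem_biUnion.mpr ⟨e, he,
      Finset.mem_erase.mpr ⟨hv1, Sym2.mem_toFinset.mpr hve⟩⟩
  refine (Finset.card_le_card h1).trans ?_
  refine (Finset.card_biUnion_le_card_mul _ _ 1 ?_).trans (by simp)
  intro e he
  rw [Finset.card_erase_of_mem (Sym2.mem_toFinset.mpr (hO e he)), Sym2.card_toFinset]
  split_ifs <;> omega

/-- The chain lemma. -/
lemma chain_sum {z : ℝ} {κ : ℕ} (hz : 0 ≤ z) (hκ : 4 * (κ : ℝ) * z ≤ 1) (F : Finset (Sym2 X)) :
    Degen κ F → ∀ Y : Finset X, ∑ Z ∈ F.powerset, gY z Y Z ≤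
      2 ^ (Y ∩ supp F).card * ((1 + 2 * z) ^ κ - κ * (2 * z)) ^ (supp F).card := by
  set a := 2 * z with ha
  have ha0 : 0 ≤ a := by positivity
  set M := (1 + a) ^ κ - κ * a with hM
  have hM1 : 1 ≤ M := by
    have := one_add_mul_le_pow (a := a) (by linarith) κ
    rw [hM]
    linarith
  have hM2 : (1 + a) ^ κ ≤ 2 * M := by
    have h1 : 1 ≤ (1 + a) ^ κ := one_le_pow₀ (by linarith)
    have h2 : 2 * (κ * a) ≤ 1 := by rw [ha]; linarith
    rw [hM]
    linarith
  induction F using Finset.strongInduction with
  | H F ih =>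
    intro hD Y
    rcases F.eq_empty_or_nonempty with rfl | hne
    · simp [supp, gY, star]
    obtain ⟨u, hu1, hu2⟩ := hD F (Subset.refl _) hne
    have hss := del_ssubset hu1
    have hIH := ih _ hss (hD.mono (del_subset F u))
    rw [sum_powerset_split F u]
    set F' := del F u with hF'
    have hdeg : (star F u).card ≤ κ := hu2
    have h1 : ∀ O ∈ (star F u).powerset,
        ∑ Z' ∈ F'.powerset, gY z Y (O ∪ Z') ≤
          (if u ∈ Y ∨ O.card ≠ 1 then a ^ O.card else 0) *
            (2 ^ (Y ∩ supp F').card * M ^ (supp F').card) := by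
      intro O hO
      have hO' := Finset.mem_powerset.mp hO
      have hOu : ∀ e ∈ O, u ∈ e := fun e he => (Finset.mem_filter.mp (hO' he)).2
      have huF' : u ∉ supp F' := not_mem_supp_del F u
      have h2 : ∀ Z' ∈ F'.powerset, gY z Y (O ∪ Z') ≤
          (if u ∈ Y ∨ O.card ≠ 1 then z ^ O.card else 0) * gY z (Y ∪ supp O) Z' := by
        intro Z' hZ'
        have hZ := Finset.mem_powerset.mp hZ'
        unfold gY
        by_cases hall : ∀ v, v ∉ Y → (star (O ∪ Z') v).card ≠ 1
        · rw [if_pos hall]
          have h3 : u ∈ Y ∨ O.card ≠ 1 := by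
            by_cases huY : u ∈ Y
            · exact Or.inl huY
            · right
              have := hall u huY
              rwa [star_union_eq hO' hZ] at this
          rw [if_pos h3]
          have h4 : ∀ v, v ∉ Y ∪ supp O → (star Z' v).card ≠ 1 := by
            intro v hv
            rw [Finset.mem_union, not_or] at hv
            have h5 := hall v hv.1
            have h6 : star (O ∪ Z') v = star Z' v := by
              ext e
              simp only [star, mem_filter, mem_union]
              constructor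
              · rintro ⟨h | h, h2⟩
                · exact absurd (mem_supp.mpr ⟨e, h, h2⟩) hv.2
                · exact ⟨h, h2⟩
              · rintro ⟨h, h2⟩
                exact ⟨Or.inr h, h2⟩
            rwa [h6] at h5
          rw [if_pos h4, card_union_split hO' hZ, pow_add]
        · rw [if_neg hall]
          apply mul_nonneg
          · split_ifs <;> positivity
          · split_ifs <;> positivity
      have h3 : ∑ Z' ∈ F'.powerset, gY z (Y ∪ supp O) Z' ≤
          2 ^ ((Y ∩ supp F').card + O.card) * M ^ (supp F').card := by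
        refine (hIH (Y ∪ supp O)).trans ?_
        apply mul_le_mul_of_nonneg_right _ (by positivity)
        apply pow_le_pow_right₀ (by norm_num)
        have h4 : (Y ∪ supp O) ∩ supp F' ⊆ (Y ∩ supp F') ∪ (supp O).erase u := by
          intro v hv
          obtain ⟨hv1, hv2⟩ := Finset.mem_inter.mp hv
          rcases Finset.mem_union.mp hv1 with h5 | h5
          · exact Finset.mem_union_left _ (Finset.mem_inter.mpr ⟨h5, hv2⟩)
          · refine Finset.mem_union_right _ (Finset.mem_erase.mpr ⟨?_, h5⟩)
            rintro rfl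
            exact huF' hv2
        refine (Finset.card_le_card h4).trans ?_
        refine (Finset.card_union_le _ _).trans ?_
        have := card_inter_erase_le hOu
        omega
      calc ∑ Z' ∈ F'.powerset, gY z Y (O ∪ Z')
          ≤ ∑ Z' ∈ F'.powerset, (if u ∈ Y ∨ O.card ≠ 1 then z ^ O.card else 0) *
              gY z (Y ∪ supp O) Z' := Finset.sum_le_sum h2
        _ = (if u ∈ Y ∨ O.card ≠ 1 then z ^ O.card else 0) *
              ∑ Z' ∈ F'.powerset, gY z (Y ∪ supp O) Z' := by rw [Finset.mul_sum]
        _ ≤ (if u ∈ Y ∨ O.card ≠ 1 then z ^ O.card else 0) *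
              (2 ^ ((Y ∩ supp F').card + O.card) * M ^ (supp F').card) := by
            apply mul_le_mul_of_nonneg_left h3
            split_ifs <;> positivity
        _ = _ := by
            split_ifs
            · rw [ha, mul_pow, pow_add]; ring
            · simp
    have hP : 0 ≤ (2 : ℝ) ^ (Y ∩ supp F').card * M ^ (supp F').card := by positivity
    calc _ ≤ ∑ O ∈ (star F u).powerset, (if u ∈ Y ∨ O.card ≠ 1 then a ^ O.card else 0) *
            (2 ^ (Y ∩ supp F').card * M ^ (supp F').card) := Finset.sum_le_sum h1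
      _ = (∑ O ∈ (star F u).powerset, (if u ∈ Y ∨ O.card ≠ 1 then a ^ O.card else 0)) *
            (2 ^ (Y ∩ supp F').card * M ^ (supp F').card) := by rw [Finset.sum_mul]
      _ ≤ _ := ?_
    have hsuppsub : supp F' ⊆ (supp F).erase u := supp_del_subset F u
    have hcardsupp : (supp F').card + 1 ≤ (supp F).card := card_supp_del_lt hu1
    by_cases huY : u ∈ Y
    · simp only [huY, true_or, if_true]
      rw [sum_pow_powerset]
      have h3 : (Y ∩ supp F').card + 1 ≤ (Y ∩ supp F).card := by
        have h4 : insert u (Y ∩ supp F') ⊆ Y ∩ supp F := by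
          apply Finset.insert_subset
          · exact Finset.mem_inter.mpr ⟨huY, mem_supp_of_star hu1⟩
          · intro v hv
            obtain ⟨hv1, hv2⟩ := Finset.mem_inter.mp hv
            exact Finset.mem_inter.mpr ⟨hv1, (Finset.mem_erase.mp (hsuppsub hv2)).2⟩
        have h5 : u ∉ Y ∩ supp F' := fun h => not_mem_supp_del F u (Finset.mem_inter.mp h).2
        have := Finset.card_le_card h4
        rwa [Finset.card_insert_of_notMem h5] at this
      have h4 : (1 + a) ^ (star F u).card ≤ 2 * M :=
        (pow_le_pow_right₀ (by linarith) hdeg).trans hM2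
      calc (1 + a) ^ (star F u).card * (2 ^ (Y ∩ supp F').card * M ^ (supp F').card)
          ≤ (2 * M) * (2 ^ (Y ∩ supp F').card * M ^ (supp F').card) :=
            mul_le_mul_of_nonneg_right h4 hP
        _ = 2 ^ ((Y ∩ supp F').card + 1) * M ^ ((supp F').card + 1) := by
            rw [pow_succ, pow_succ]; ring
        _ ≤ _ := by
            apply mul_le_mul
            · exact pow_le_pow_right₀ (by norm_num) h3
            · exact pow_le_pow_right₀ hM1 hcardsupp
            · positivity
            · positivity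
    · simp only [huY, false_or]
      rw [sum_card_one]
      have h4 : (1 + a) ^ (star F u).card - (star F u).card * a ≤ M := mono_pow_sub ha0 hdeg
      have h5 : (Y ∩ supp F').card ≤ (Y ∩ supp F).card := by
        apply Finset.card_le_card
        intro v hv
        obtain ⟨hv1, hv2⟩ := Finset.mem_inter.mp hv
        exact Finset.mem_inter.mpr ⟨hv1, (Finset.mem_erase.mp (hsuppsub hv2)).2⟩
      calc ((1 + a) ^ (star F u).card - (star F u).card * a) *
            (2 ^ (Y ∩ supp F').card * M ^ (supp F').card)
          ≤ M * (2 ^ (Y ∩ supp F').card * M ^ (supp F').card) :=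
            mul_le_mul_of_nonneg_right h4 hP
        _ = 2 ^ (Y ∩ supp F').card * M ^ ((supp F').card + 1) := by
            rw [pow_succ]; ring
        _ ≤ _ := by
            apply mul_le_mul
            · exact pow_le_pow_right₀ (by norm_num) h5
            · exact pow_le_pow_right₀ hM1 hcardsupp
            · positivity
            · positivity

end

end Vale.Agent.P064L
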