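import Vale.Agent.P064L.Phi

/-!
# The bound on the generating function of sets of large minimum degree
-/

set_option linter.unusedSectionVars false
set_option linter.unusedVariables false
set_option linter.unusedDecidableInType false
set_option linter.unusedFintypeInType false

open Finset
open scoped Classical Nat

namespace Vale.Agent.P064L

noncomputable section

variable {X : Type*} [Fintype X]

lemma exp_half_le : Real.exp (1 / 2) ≤ 1.65 := by
  have h1 : Real.exp (1 / 2) ^ 2 = Real.exp 1 := by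
    rw [← Real.exp_nat_mul]; norm_num
  have h2 := Real.exp_one_lt_d9
  have h3 : Real.exp (1 / 2) ^ 2 ≤ (1.65 : ℝ) ^ 2 := by
    rw [h1]; norm_num at h2 ⊢; linarith
  exact le_of_sq_le_sq h3 (by norm_num) |> fun h => h
where
  le_of_sq_le_sq {a b : ℝ} (h : a ^ 2 ≤ b ^ 2) (hb : 0 ≤ b) : a ≤ b := abs_le_of_sq_le_sq' h hb |>.2

lemma phi_bound_large {F : Finset (Sym2 X)} {β : ℕ} {z : ℝ} (hβ : 4 ≤ β) (hz : 0 ≤ z)
    (hz1 : z ≤ 1 / 96) (hD : Degen (8 * β) F) :
    ∑ Z ∈ DD β F, z ^ Z.card ≤ Real.exp (4356 * z ^ 2 * (supp F).card) := by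
  set h := β / 2 with hh
  have hh2 : 2 ≤ h := by omega
  have hβh : 2 * h ≤ β := by omega
  have hκ : 8 * β ≤ 20 * h := by omega
  have hD' : Degen (20 * h) F := hD.mono_right hκ
  set w := 40 * z with hw
  have hw0 : 0 ≤ w := by positivity
  have hw1 : w ≤ 1 := by rw [hw]; linarith
  set y : ℝ := 1 / 40 with hy
  set s := w ^ h with hs
  have hs0 : 0 ≤ s := by positivity
  have hs1 : s ≤ 1 := pow_le_one₀ hw0 hw1
  have h1 : ∑ Z ∈ DD β F, z ^ Z.card ≤ ∑ Z ∈ F.powerset, y ^ Z.card * s ^ (supp Z).card := by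
    calc ∑ Z ∈ DD β F, z ^ Z.card ≤ ∑ Z ∈ DD β F, y ^ Z.card * s ^ (supp Z).card := by
          refine Finset.sum_le_sum fun Z hZ => ?_
          have hmin := (Finset.mem_filter.mp hZ).2
          have h2 := card_supp_mul_le hmin
          have h3 : h * (supp Z).card ≤ Z.card := by nlinarith
          have h4 : z = y * w := by rw [hy, hw]; ring
          rw [hs, ← pow_mul]
          calc z ^ Z.card = y ^ Z.card * w ^ Z.card := by rw [h4, mul_pow]
            _ ≤ y ^ Z.card * w ^ (h * (supp Z).card) :=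
                mul_le_mul_of_nonneg_left (pow_le_pow_of_le_one hw0 hw1 h3) (by positivity)
      _ ≤ _ := by
          apply Finset.sum_le_sum_of_subset_of_nonneg (Finset.filter_subset _ _)
          intro _ _ _
          positivity
  refine h1.trans ((chern_sum (by norm_num) hs0 hs1 F hD').trans ?_)
  have h2 : (1 + y) ^ (20 * h) ≤ Real.exp (1 / 2) ^ h := by
    rw [← Real.exp_nat_mul]
    have h3 : 1 + y ≤ Real.exp y := by linarith [Real.add_one_le_exp y]
    calc (1 + y) ^ (20 * h) ≤ Real.exp y ^ (20 * h) :=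
          pow_le_pow_left₀ (by norm_num [hy]) h3 _
      _ = Real.exp (((20 * h : ℕ) : ℝ) * y) := by rw [← Real.exp_nat_mul]
      _ = Real.exp ((h : ℝ) * (1 / 2)) := by
          congr 1
          rw [hy]; push_cast; ring
  have h3 : s * ((1 + y) ^ (20 * h) - 1) ≤ (66 * z) ^ 2 := by
    have h4 : s * ((1 + y) ^ (20 * h) - 1) ≤ s * Real.exp (1 / 2) ^ h := by
      apply mul_le_mul_of_nonneg_left _ hs0
      linarith
    have h5 : s * Real.exp (1 / 2) ^ h = (w * Real.exp (1 / 2)) ^ h := by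
      rw [hs]; exact (mul_pow _ _ _).symm
    have h6 : w * Real.exp (1 / 2) ≤ 66 * z := by
      have := exp_half_le
      have h7 : w * Real.exp (1 / 2) ≤ w * 1.65 := mul_le_mul_of_nonneg_left this hw0
      rw [hw] at h7 ⊢
      linarith
    have h7 : 0 ≤ w * Real.exp (1 / 2) := by positivity
    have h8 : 66 * z ≤ 1 := by linarith
    calc _ ≤ _ := h4
      _ = _ := h5
      _ ≤ (66 * z) ^ h := pow_le_pow_left₀ h7 h6 _
      _ ≤ (66 * z) ^ 2 := pow_le_pow_of_le_one (by positivity) h8 hh2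
  have h4 : 0 ≤ s * ((1 + y) ^ (20 * h) - 1) := by
    apply mul_nonneg hs0
    have : 1 ≤ (1 + y) ^ (20 * h) := one_le_pow₀ (by norm_num [hy])
    linarith
  have h5 : 1 + s * ((1 + y) ^ (20 * h) - 1) ≤ Real.exp (4356 * z ^ 2) := by
    have := Real.add_one_le_exp (4356 * z ^ 2)
    nlinarith
  calc (1 + s * ((1 + y) ^ (20 * h) - 1)) ^ (supp F).card
      ≤ Real.exp (4356 * z ^ 2) ^ (supp F).card :=
        pow_le_pow_left₀ (by linarith) h5 _
    _ = _ := by
        rw [← Real.exp_nat_mul]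
        congr 1
        ring

lemma phi_bound_small {F : Finset (Sym2 X)} {β : ℕ} {z : ℝ} (hβ : 2 ≤ β) (hβ2 : β ≤ 3) (hz : 0 ≤ z)
    (hz1 : z ≤ 1 / 96) (hD : Degen (8 * β) F) :
    ∑ Z ∈ DD β F, z ^ Z.card ≤ Real.exp (4356 * z ^ 2 * (supp F).card) := by
  have hD' : Degen 24 F := hD.mono_right (by omega)
  have h1 : ∑ Z ∈ DD β F, z ^ Z.card ≤ ∑ Z ∈ F.powerset, gY z ∅ Z := by
    calc ∑ Z ∈ DD β F, z ^ Z.card = ∑ Z ∈ DD β F, gY z ∅ Z := by
          refine Finset.sum_congr rfl fun Z hZ => ?_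
          have hmin := (Finset.mem_filter.mp hZ).2
          unfold gY
          rw [if_pos]
          intro v _
          rcases hmin v with h | h <;> omega
      _ ≤ _ := by
          apply Finset.sum_le_sum_of_subset_of_nonneg (Finset.filter_subset _ _)
          intro Z _ _
          exact gY_nonneg hz _ _
  have h2 := chain_sum hz (κ := 24) (by push_cast; linarith) F hD' ∅
  simp only [Finset.empty_inter, Finset.card_empty, pow_zero, one_mul] at h2
  refine h1.trans (h2.trans ?_)
  push_cast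
  set x := 48 * z with hx
  have hx0 : 0 ≤ x := by positivity
  have hx1 : x ≤ 1 := by rw [hx]; linarith
  have h3 : (1 + 2 * z) ^ 24 ≤ Real.exp x := by
    have h4 : 1 + 2 * z ≤ Real.exp (2 * z) := by linarith [Real.add_one_le_exp (2 * z)]
    calc (1 + 2 * z) ^ 24 ≤ Real.exp (2 * z) ^ 24 :=
          pow_le_pow_left₀ (by positivity) h4 _
      _ = Real.exp x := by
          rw [← Real.exp_nat_mul, hx]
          congr 1
          push_cast
          ring
  have h4 : Real.exp x ≤ 1 + x + x ^ 2 := by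
    have := Real.abs_exp_sub_one_sub_id_le (x := x) (by rw [abs_of_nonneg hx0]; exact hx1)
    have h5 := (abs_le.mp this).2
    linarith
  have h5 : (1 + 2 * z) ^ 24 - 24 * (2 * z) ≤ Real.exp (4356 * z ^ 2) := by
    have := Real.add_one_le_exp (4356 * z ^ 2)
    have h6 : x ^ 2 = 2304 * z ^ 2 := by rw [hx]; ring
    have h7 : 24 * (2 * z) = x := by rw [hx]; ring
    rw [h7]
    nlinarith [sq_nonneg z]
  have h6 : 0 ≤ (1 + 2 * z) ^ 24 - 24 * (2 * z) := by
    have := one_add_mul_le_pow (a := 2 * z) (by linarith) 24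
    push_cast at this
    linarith
  calc ((1 + 2 * z) ^ 24 - 24 * (2 * z)) ^ (supp F).card
      ≤ Real.exp (4356 * z ^ 2) ^ (supp F).card := pow_le_pow_left₀ h6 h5 _
    _ = _ := by
        rw [← Real.exp_nat_mul]
        congr 1
        ring

/-- The bound on the generating function. -/
theorem phi_bound {F : Finset (Sym2 X)} {β : ℕ} {z : ℝ} (hβ : 2 ≤ β) (hz : 0 ≤ z)
    (hz1 : z ≤ 1 / 96) (hD : Degen (8 * β) F) :
    ∑ Z ∈ DD β F, z ^ Z.card ≤ Real.exp (4356 * z ^ 2 * (supp F).card) := by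
  by_cases h : β ≤ 3
  · exact phi_bound_small hβ h hz hz1 hD
  · exact phi_bound_large (by omega) hz hz1 hD

end

end Vale.Agent.P064L
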