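import Vale.Agent.P064L.Cod

/-!
# The main step and the iteration in the dense regime
-/

set_option linter.unusedSectionVars false
set_option linter.unusedVariables false
set_option linter.unusedDecidableInType false
set_option linter.unusedFintypeInType false

open Finset
open scoped Classical Nat

namespace Vale.Agent.P064L

noncomputable section

variable {X : Type*} [Fintype X]

/-- The hypotheses of the dense regime. -/
structure Dense (H : Finset (Sym2 X)) (q : ℝ) : Prop where
  noLoop : NoLoop H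
  hyp : Hyp1 H q
  q_pos : 0 < q
  q_le : q ≤ Real.exp (-1)
  supp_le : 2 * (supp H).card ≤ Fintype.card X
  good1 : good (Fintype.card X) q 1
  card_pos : 0 < Fintype.card X

lemma exp_two_le : Real.exp 2 ≤ 7.5 := by
  have h1 : Real.exp 2 = Real.exp 1 ^ 2 := by
    rw [← Real.exp_nat_mul]; norm_num
  have h2 := Real.exp_one_lt_d9
  have h3 := Real.exp_pos 1
  rw [h1]
  norm_num at h2
  nlinarith

lemma cn_mono {F H : Finset (Sym2 X)} (h : F ⊆ H) (B : Finset X) : cn F B ⊆ cn H B := by
  intro x hx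
  refine Finset.mem_filter.mpr ⟨Finset.mem_univ _, fun y hy => h ((Finset.mem_filter.mp hx).2 y hy)⟩

/-- The main step. -/
theorem step_main {H F : Finset (Sym2 X)} {q L : ℝ} (D : Dense H q) (hL : 9216 ≤ L) (hF : F ⊆ H)
    (hmax : ∀ U, psi H (L * q) U ≤ psi H (L * q) F) (hpos : 0 < psi H (L * q) F) :
    psi H (L * q) F ≤ 2 * Real.exp (17500 * F.card / L) := by
  have hq := D.q_pos
  have hLpos : 0 < L := by linarith
  set Q := L * q with hQdef
  have hQ : 0 < Q := by positivity
  have hq1 : q < 1 := lt_of_le_of_lt D.q_le (by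
    rw [Real.exp_lt_one_iff]; norm_num)
  have hex := exists_not_good (Fintype.card X) hq hq1
  set β := Nat.find hex with hβ
  have hβbad : ¬ good (Fintype.card X) q β := Nat.find_spec hex
  have hβgood : ∀ b, b < β → good (Fintype.card X) q b := fun b hb => by
    have := Nat.find_min hex hb
    exact not_not.mp this
  have hβ2 : 2 ≤ β := by
    by_contra hcon
    have : β = 0 ∨ β = 1 := by omega
    rcases this with h | h
    · rw [h] at hβbad
      exact hβbad (good_zero D.card_pos q)
    · rw [h] at hβbad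
      exact hβbad D.good1
  have hFl : NoLoop F := D.noLoop.mono hF
  have hsupp : 2 * (supp F).card ≤ Fintype.card X := by
    have := Finset.card_le_card (supp_mono hF)
    have := D.supp_le
    omega
  have hDeg : Degen (8 * β) F :=
    (degen_of_not_good D.hyp hq D.q_le D.card_pos hβbad).mono hF
  set x := 2 * Real.exp 2 / L with hx
  have hx0 : 0 ≤ x := by positivity
  have hCod : ∀ b, 1 ≤ b → b < β → ∀ B : Finset X, B.card = b →
      2 * ((cn F B).card : ℝ) ≤ (Fintype.card X : ℝ) * (Q * x) ^ b := by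
    intro b hb1 hb2 B hB
    have h1 : ((cn F B).card : ℝ) ≤ ((cn H B).card : ℝ) := by
      exact_mod_cast Finset.card_le_card (cn_mono hF B)
    have h2 := cod_le_of_good D.hyp hq hq1.le D.noLoop B D.card_pos (by rw [hB]; exact hβgood b hb2)
    rw [hB] at h2
    have h3 : Q * x = 2 * Real.exp 2 * q := by
      rw [hQdef, hx]; field_simp
    have h4 : (1 : ℝ) ≤ 2 * Real.exp 2 := by
      have := Real.one_le_exp (x := 2) (by norm_num)
      linarith
    have h5 : 2 * Real.exp 2 ≤ (2 * Real.exp 2) ^ b := le_self_pow₀ h4 (by omega)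
    rw [h3, mul_pow]
    have h6 : (0 : ℝ) ≤ (Fintype.card X : ℝ) * q ^ b := by positivity
    have h7 := mul_le_mul_of_nonneg_right h5 h6
    nlinarith
  set z := Real.sqrt (1 / L) with hz
  have hz0 : 0 ≤ z := Real.sqrt_nonneg _
  have hz2 : z ^ 2 = 1 / L := Real.sq_sqrt (by positivity)
  have hzL : z ^ 2 * L = 1 := by rw [hz2]; field_simp
  have hz1 : z ≤ 1 / 96 := by
    have h1 : z ^ 2 ≤ (1 / 96 : ℝ) ^ 2 := by
      rw [hz2, div_le_iff₀ hLpos]
      norm_num
      linarith
    exact (abs_le_of_sq_le_sq' h1 (by norm_num)).2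
  have h1 := psi_le_sum hQ hmax hpos
  have h2 := sum_le_core hQ hx0 hFl hsupp hCod
  have h3 := core_sum_le (F := F) (β := β) hq hLpos hz0 hzL (fun Z hZ => D.hyp Z (hZ.trans hF))
  have h4 := phi_bound hβ2 hz0 hz1 hDeg
  have hΦ0 : 0 ≤ ∑ Z ∈ DD β F, z ^ Z.card := Finset.sum_nonneg fun _ _ => by positivity
  have h5 : (∑ Z ∈ DD β F, z ^ Z.card) ^ 2 ≤ Real.exp (17424 * F.card / L) := by
    have h6 : 4356 * z ^ 2 * ((supp F).card : ℝ) ≤ 8712 * F.card / L := by
      have h7 : ((supp F).card : ℝ) ≤ 2 * F.card := by exact_mod_cast card_supp_le F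
      rw [hz2]
      have h8 : 4356 * (1 / L) * ((supp F).card : ℝ) ≤ 4356 * (1 / L) * (2 * F.card) :=
        mul_le_mul_of_nonneg_left h7 (by positivity)
      calc _ ≤ _ := h8
        _ = _ := by ring
    have h7 : ∑ Z ∈ DD β F, z ^ Z.card ≤ Real.exp (8712 * F.card / L) :=
      h4.trans (Real.exp_le_exp.mpr h6)
    calc (∑ Z ∈ DD β F, z ^ Z.card) ^ 2 ≤ Real.exp (8712 * F.card / L) ^ 2 :=
          pow_le_pow_left₀ hΦ0 h7 _
      _ = _ := by
          rw [← Real.exp_nat_mul]
          congr 1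
          push_cast
          ring
  have h6 : (1 + x) ^ F.card ≤ Real.exp (76 * F.card / L) := by
    have h7 : 1 + x ≤ Real.exp x := by linarith [Real.add_one_le_exp x]
    calc (1 + x) ^ F.card ≤ Real.exp x ^ F.card := pow_le_pow_left₀ (by linarith) h7 _
      _ = Real.exp ((F.card : ℝ) * x) := by rw [← Real.exp_nat_mul]
      _ ≤ _ := by
          apply Real.exp_le_exp.mpr
          have h8 := exp_two_le
          have h9 : x ≤ 76 / L := by
            rw [hx]
            apply div_le_div_of_nonneg_right _ hLpos.le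
            norm_num at h8
            linarith
          calc (F.card : ℝ) * x ≤ (F.card : ℝ) * (76 / L) :=
                mul_le_mul_of_nonneg_left h9 (Nat.cast_nonneg _)
            _ = _ := by ring
  have h7 : 0 ≤ (1 + x) ^ F.card := by positivity
  have h8 : Real.exp (17424 * F.card / L) * Real.exp (76 * F.card / L) =
      Real.exp (17500 * F.card / L) := by
    rw [← Real.exp_add]; congr 1; ring
  calc psi H Q F ≤ _ := h1
    _ ≤ _ := h2
    _ ≤ (2 * (∑ Z ∈ DD β F, z ^ Z.card) ^ 2) * (1 + x) ^ F.card :=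
        mul_le_mul_of_nonneg_right h3 h7
    _ ≤ (2 * Real.exp (17424 * F.card / L)) * Real.exp (76 * F.card / L) := by
        apply mul_le_mul _ h6 h7 (by positivity)
        linarith
    _ = _ := by rw [mul_assoc, h8]

/-- The maximum of `psi`. -/
def Mx (H : Finset (Sym2 X)) (q L : ℝ) : ℝ :=
  (univ : Finset (Finset (Sym2 X))).sup' ⟨∅, Finset.mem_univ _⟩ (psi H (L * q))

lemma le_Mx (H : Finset (Sym2 X)) (q L : ℝ) (U : Finset (Sym2 X)) : psi H (L * q) U ≤ Mx H q L :=
  Finset.le_sup' (psi H (L * q)) (Finset.mem_univ U)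

lemma one_le_Mx (H : Finset (Sym2 X)) (q L : ℝ) : 1 ≤ Mx H q L := by
  have := le_Mx H q L ∅
  rwa [psi_empty] at this

lemma exists_maximiser (H : Finset (Sym2 X)) {q L : ℝ} (hq : 0 < q) (hL : 0 < L) :
    ∃ F, F ⊆ H ∧ Mx H q L = psi H (L * q) F := by
  obtain ⟨F, _, hF⟩ := Finset.exists_mem_eq_sup' (s := (univ : Finset (Finset (Sym2 X))))
    ⟨∅, Finset.mem_univ _⟩ (psi H (L * q))
  have hMx : Mx H q L = psi H (L * q) F := hF
  have h1 : 0 < psi H (L * q) F := by
    rw [← hMx]
    linarith [one_le_Mx H q L]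
  have h2 : cnt H F ≠ 0 := by
    intro h
    unfold psi at h1
    rw [h] at h1
    simp at h1
  have h3 : (univ.filter fun σ : Equiv.Perm X => act σ F ⊆ H).Nonempty :=
    Finset.card_pos.mp (Nat.pos_of_ne_zero h2)
  obtain ⟨σ, hσ⟩ := h3
  refine ⟨act σ F, (Finset.mem_filter.mp hσ).2, ?_⟩
  rw [psi_act, hMx]

lemma psi_scale (H U : Finset (Sym2 X)) {q L L' : ℝ} (hq : 0 < q) (hL : 0 < L) (hL' : 0 < L') :
    psi H (L' * q) U = psi H (L * q) U * (L / L') ^ U.card := by
  unfold psi
  rw [mul_pow, mul_pow, div_pow]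
  have h1 : 0 < q ^ U.card := by positivity
  have h2 : 0 < L ^ U.card := by positivity
  have h3 : 0 < L' ^ U.card := by positivity
  field_simp

/-- One iteration. -/
theorem Mx_step {H : Finset (Sym2 X)} {q L' : ℝ} (D : Dense H q) (hL' : 0 < L') :
    Mx H q (L' + 35000) ^ 3 ≤ 4 * Mx H q L' := by
  set L := L' + 35000 with hLdef
  have hL : 9216 ≤ L := by rw [hLdef]; linarith
  have hLpos : 0 < L := by linarith
  have hq := D.q_pos
  obtain ⟨F, hF, hFmax⟩ := exists_maximiser H hq hLpos
  have hM1 := one_le_Mx H q L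
  have hmax : ∀ U, psi H (L * q) U ≤ psi H (L * q) F := fun U => by
    rw [← hFmax]; exact le_Mx H q L U
  have hpos : 0 < psi H (L * q) F := by rw [← hFmax]; linarith
  have h1 := step_main D hL hF hmax hpos
  rw [← hFmax] at h1
  set E := Real.exp (17500 * F.card / L) with hE
  have hE0 : 0 < E := Real.exp_pos _
  have h2 : Mx H q L * E ^ 2 ≤ Mx H q L' := by
    have h3 := le_Mx H q L' F
    rw [psi_scale H F hq hLpos hL', ← hFmax] at h3
    refine le_trans ?_ h3
    apply mul_le_mul_of_nonneg_left _ (by linarith)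
    have h4 : Real.exp (35000 / L) ≤ L / L' := by
      have h5 := Real.one_sub_inv_le_log_of_pos (x := L / L') (by positivity)
      have h6 : 1 - (L / L')⁻¹ = 35000 / L := by
        rw [hLdef]; field_simp; ring
      rw [h6] at h5
      calc Real.exp (35000 / L) ≤ Real.exp (Real.log (L / L')) := Real.exp_le_exp.mpr h5
        _ = _ := Real.exp_log (by positivity)
    calc E ^ 2 = Real.exp (35000 / L) ^ F.card := by
          rw [hE, ← Real.exp_nat_mul, ← Real.exp_nat_mul]
          congr 1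
          push_cast
          ring
      _ ≤ _ := pow_le_pow_left₀ (Real.exp_pos _).le h4 _
  have h3 : Mx H q L ^ 2 ≤ 4 * E ^ 2 := by
    calc Mx H q L ^ 2 ≤ (2 * E) ^ 2 := pow_le_pow_left₀ (by linarith) h1 _
      _ = _ := by ring
  calc Mx H q L ^ 3 = Mx H q L ^ 2 * Mx H q L := by ring
    _ ≤ (4 * E ^ 2) * Mx H q L := mul_le_mul_of_nonneg_right h3 (by linarith)
    _ = 4 * (Mx H q L * E ^ 2) := by ring
    _ ≤ _ := by linarith

/-- The initial bound. -/
theorem Mx_init {H : Finset (Sym2 X)} {q L : ℝ} (hq : 0 < q) (hL : 0 < L) (hyp : Hyp1 H q) :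
    Mx H q L ≤ 2 * Real.exp (H.card / L) := by
  obtain ⟨F, hF, hFmax⟩ := exists_maximiser H hq hL
  rw [hFmax]
  have hyp1 := hyp F hF
  have horb : (0 : ℝ) < ((orb F).card : ℝ) := by
    have : (orb F).Nonempty := ⟨F, mem_orb.mpr ⟨1, act_one F⟩⟩
    exact_mod_cast this.card_pos
  have h2 : (1 : ℝ) / ((orb F).card : ℝ) ≤ 2 * q ^ F.card := by
    rw [div_le_iff₀ horb]
    linarith
  have h3 : psi H (L * q) F = (cnt H F : ℝ) / ((Fintype.card X)! : ℝ) / (L * q) ^ F.card := rfl
  have hqk : 0 < q ^ F.card := by positivity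
  have hLk : 0 < L ^ F.card := by positivity
  rw [h3, cnt_div_eq, mul_pow]
  set c : ℝ := (((orb F).filter (· ⊆ H)).card : ℝ) with hc
  have h4 : c / ((orb F).card : ℝ) = c * (1 / ((orb F).card : ℝ)) := by ring
  rw [h4]
  have h5 : c * (1 / L) ^ F.card ≤ Real.exp (H.card / L) := by
    have h6 : c * (1 / L) ^ F.card = ∑ Z' ∈ (orb F).filter (· ⊆ H), (1 / L) ^ Z'.card := by
      rw [Finset.sum_congr rfl (g := fun _ => (1 / L) ^ F.card), Finset.sum_const, nsmul_eq_mul]
      intro Z' hZ'
      rw [card_mem_orb (Finset.mem_filter.mp hZ').1]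
    rw [h6]
    calc ∑ Z' ∈ (orb F).filter (· ⊆ H), (1 / L) ^ Z'.card
        ≤ ∑ Z' ∈ H.powerset, (1 / L) ^ Z'.card := by
          apply Finset.sum_le_sum_of_subset_of_nonneg
          · intro Z' hZ'
            exact Finset.mem_powerset.mpr (Finset.mem_filter.mp hZ').2
          · intro _ _ _
            positivity
      _ = (1 + 1 / L) ^ H.card := sum_pow_powerset H _
      _ ≤ Real.exp (1 / L) ^ H.card := by
          apply pow_le_pow_left₀ (by positivity)
          linarith [Real.add_one_le_exp (1 / L)]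
      _ = _ := by
          rw [← Real.exp_nat_mul]
          congr 1
          ring
  have hc0 : 0 ≤ c := Nat.cast_nonneg _
  calc c * (1 / ((orb F).card : ℝ)) / (L ^ F.card * q ^ F.card)
      ≤ c * (2 * q ^ F.card) / (L ^ F.card * q ^ F.card) := by
        apply div_le_div_of_nonneg_right (mul_le_mul_of_nonneg_left h2 hc0) (by positivity)
    _ = 2 * (c * (1 / L) ^ F.card) := by
        rw [div_pow, one_pow]
        field_simp
    _ ≤ _ := by linarith

/-- The final bound in the dense regime. -/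
theorem dense_bound {H : Finset (Sym2 X)} {q : ℝ} (D : Dense H q) {m : ℕ} (hm : H.card ≤ 3 ^ m)
    (U : Finset (Sym2 X)) :
    psi H ((35000 * ((m : ℝ) + 1)) * q) U ≤ 2 * Real.exp 1 := by
  have hq := D.q_pos
  let y : ℕ → ℝ := fun i => Mx H q (35000 * ((i : ℝ) + 1)) / 2
  have hy0 : ∀ i, 0 ≤ y i := fun i => by
    have := one_le_Mx H q (35000 * ((i : ℝ) + 1))
    simp only [y]
    linarith
  have hstep : ∀ i, y (i + 1) ^ 3 ≤ y i := by
    intro i
    have h1 := Mx_step D (L' := 35000 * ((i : ℝ) + 1)) (by positivity)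
    have h2 : 35000 * ((i : ℝ) + 1) + 35000 = 35000 * (((i + 1 : ℕ) : ℝ) + 1) := by
      push_cast; ring
    rw [h2] at h1
    simp only [y]
    rw [div_pow]
    have h3 : (2 : ℝ) ^ 3 = 8 := by norm_num
    rw [h3]
    linarith
  have hiter : ∀ i, y i ^ (3 ^ i) ≤ y 0 := by
    intro i
    induction i with
    | zero => simp
    | succ i ih =>
      calc y (i + 1) ^ (3 ^ (i + 1)) = (y (i + 1) ^ 3) ^ (3 ^ i) := by
            rw [← pow_mul, pow_succ]; ring_nf
        _ ≤ y i ^ (3 ^ i) := pow_le_pow_left₀ (by have := hy0 (i + 1); positivity) (hstep i) _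
        _ ≤ _ := ih
  have h0 : y 0 ≤ Real.exp (3 ^ m : ℝ) := by
    simp only [y]
    have h1 := Mx_init (H := H) (q := q) (L := 35000 * (((0 : ℕ) : ℝ) + 1)) hq (by norm_num) D.hyp
    have h2 : (H.card : ℝ) / (35000 * (((0 : ℕ) : ℝ) + 1)) ≤ (3 ^ m : ℝ) := by
      have h3 : (H.card : ℝ) ≤ 3 ^ m := by exact_mod_cast hm
      have h4 : (0 : ℝ) ≤ H.card := Nat.cast_nonneg _
      rw [div_le_iff₀ (by norm_num)]
      norm_num
      nlinarith [pow_pos (show (0 : ℝ) < 3 by norm_num) m]
    have h3 := Real.exp_le_exp.mpr h2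
    linarith
  have h1 : y m ^ (3 ^ m) ≤ Real.exp 1 ^ (3 ^ m) := by
    have h2 : Real.exp 1 ^ (3 ^ m) = Real.exp (3 ^ m : ℝ) := by
      rw [← Real.exp_nat_mul]; simp
    rw [h2]
    exact (hiter m).trans h0
  have h2 : y m ≤ Real.exp 1 := by
    by_contra hcon
    rw [not_le] at hcon
    have := pow_lt_pow_left₀ hcon (Real.exp_pos 1).le (pow_ne_zero m (by norm_num : (3 : ℕ) ≠ 0))
    linarith
  have h3 := le_Mx H q (35000 * ((m : ℝ) + 1)) U
  simp only [y] at h2
  linarith

end

end Vale.Agent.P064L
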