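import Vale.Agent.P064L.Moment

/-!
# Stars, supports and the swap lemma
-/

set_option linter.unusedSectionVars false
set_option linter.unusedVariables false
set_option linter.unusedDecidableInType false
set_option linter.unusedFintypeInType false

open Finset
open scoped Classical Nat

namespace Vale.Agent.P064L

noncomputable section

variable {X : Type*} [Fintype X]

/-- The edges at `u`. -/
def star (F : Finset (Sym2 X)) (u : X) : Finset (Sym2 X) := F.filter fun e => u ∈ e

/-- The edges not at `u`. -/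
def del (F : Finset (Sym2 X)) (u : X) : Finset (Sym2 X) := F.filter fun e => u ∉ e

/-- The vertices covered by the edges. -/
def supp (F : Finset (Sym2 X)) : Finset X := F.biUnion Sym2.toFinset

/-- The neighbours of `u`. -/
def nbr (F : Finset (Sym2 X)) (u : X) : Finset X := univ.filter fun y => s(u, y) ∈ F

/-- The common neighbours of a vertex set. -/
def cn (F : Finset (Sym2 X)) (B : Finset X) : Finset X := univ.filter fun x => ∀ y ∈ B, s(x, y) ∈ F

/-- No edge is a loop. -/
def NoLoop (F : Finset (Sym2 X)) : Prop := ∀ e ∈ F, ¬ e.IsDiag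

lemma mem_supp {F : Finset (Sym2 X)} {u : X} : u ∈ supp F ↔ ∃ e ∈ F, u ∈ e := by
  simp [supp, Sym2.mem_toFinset]

lemma supp_mono {F F' : Finset (Sym2 X)} (h : F ⊆ F') : supp F ⊆ supp F' :=
  Finset.biUnion_subset_biUnion_of_subset_left _ h

lemma card_supp_le (F : Finset (Sym2 X)) : (supp F).card ≤ 2 * F.card := by
  unfold supp
  refine (Finset.card_biUnion_le_card_mul _ _ 2 ?_).trans (by rw [mul_comm])
  intro e _
  rw [Sym2.card_toFinset]
  split_ifs <;> omega

lemma del_subset (F : Finset (Sym2 X)) (u : X) : del F u ⊆ F := Finset.filter_subset _ _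

lemma star_subset (F : Finset (Sym2 X)) (u : X) : star F u ⊆ F := Finset.filter_subset _ _

lemma card_star_add_del (F : Finset (Sym2 X)) (u : X) :
    (star F u).card + (del F u).card = F.card :=
  Finset.card_filter_add_card_filter_not _

lemma not_mem_supp_del (F : Finset (Sym2 X)) (u : X) : u ∉ supp (del F u) := by
  rw [mem_supp]
  rintro ⟨e, he, hu⟩
  exact (Finset.mem_filter.mp he).2 hu

lemma mem_supp_of_star {F : Finset (Sym2 X)} {u : X} (h : (star F u).Nonempty) : u ∈ supp F := by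
  obtain ⟨e, he⟩ := h
  obtain ⟨h1, h2⟩ := Finset.mem_filter.mp he
  exact mem_supp.mpr ⟨e, h1, h2⟩

lemma star_nonempty_of_mem_supp {F : Finset (Sym2 X)} {u : X} (h : u ∈ supp F) :
    (star F u).Nonempty := by
  obtain ⟨e, he, hu⟩ := mem_supp.mp h
  exact ⟨e, Finset.mem_filter.mpr ⟨he, hu⟩⟩

lemma supp_del_subset (F : Finset (Sym2 X)) (u : X) : supp (del F u) ⊆ (supp F).erase u := by
  intro v hv
  refine Finset.mem_erase.mpr ⟨?_, supp_mono (del_subset F u) hv⟩
  rintro rfl
  exact not_mem_supp_del F v hv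

lemma NoLoop.mono {F F' : Finset (Sym2 X)} (h : NoLoop F') (hF : F ⊆ F') : NoLoop F :=
  fun e he => h e (hF he)

lemma ne_of_mem_noLoop {F : Finset (Sym2 X)} (h : NoLoop F) {a b : X} (hab : s(a, b) ∈ F) : a ≠ b :=
  fun hh => h _ hab (by simp [hh])

lemma card_nbr {F : Finset (Sym2 X)} (hF : NoLoop F) (u : X) :
    (nbr F u).card = (star F u).card := by
  refine Finset.card_bij (fun y _ => s(u, y)) ?_ ?_ ?_
  · intro y hy
    exact Finset.mem_filter.mpr ⟨(Finset.mem_filter.mp hy).2, Sym2.mem_mk_left u y⟩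
  · intro a _ b _ h
    exact (Sym2.congr_right.mp h)
  · intro e he
    obtain ⟨h1, h2⟩ := Finset.mem_filter.mp he
    obtain ⟨y, rfl⟩ := Sym2.mem_iff_exists.mp h2 
    exact ⟨y, Finset.mem_filter.mpr ⟨Finset.mem_univ _, h1⟩, rfl⟩

lemma nbr_subset_supp (F : Finset (Sym2 X)) (u : X) : nbr F u ⊆ supp F := by
  intro y hy
  exact mem_supp.mpr ⟨_, (Finset.mem_filter.mp hy).2, Sym2.mem_mk_right u y⟩

lemma map_congr_mem {Y : Type*} {f g : X → Y} {e : Sym2 X} (h : ∀ x ∈ e, f x = g x) :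
    Sym2.map f e = Sym2.map g e := by
  induction e using Sym2.ind with
  | _ a b =>
    simp only [Sym2.map_mk]
    rw [h a (Sym2.mem_mk_left a b), h b (Sym2.mem_mk_right a b)]

/-- **The swap lemma.** -/
lemma swap_bound (F S : Finset (Sym2 X)) (u : X) (hS : NoLoop S) :
    cnt F S * (Fintype.card X - (supp (del S u) ∪ nbr S u).card) ≤
      ∑ τ' ∈ univ.filter (fun τ' : Equiv.Perm X => act τ' (del S u) ⊆ F),
        (cn F ((nbr S u).image τ')).card := by
  set T := supp (del S u) ∪ nbr S u with hT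
  have huT : u ∉ T := by
    rw [hT, Finset.mem_union, not_or]
    refine ⟨not_mem_supp_del S u, ?_⟩
    intro h
    exact ne_of_mem_noLoop hS (Finset.mem_filter.mp h).2 rfl
  set A := univ.filter (fun τ : Equiv.Perm X => act τ S ⊆ F) with hA
  set A' := univ.filter (fun τ' : Equiv.Perm X => act τ' (del S u) ⊆ F) with hA'
  let f : Equiv.Perm X × X → Equiv.Perm X := fun p => p.1 * Equiv.swap u p.2
  have hcomp : ∀ (τ : Equiv.Perm X) (u' x : X), u' ∉ T → x ∈ T →
      (τ * Equiv.swap u u') x = τ x := by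
    intro τ u' x hu' hx
    rw [Equiv.Perm.mul_apply, Equiv.swap_apply_of_ne_of_ne]
    · rintro rfl; exact huT hx
    · rintro rfl; exact hu' hx
  have hmaps : ∀ p ∈ A ×ˢ Tᶜ, f p ∈ A' := by
    rintro ⟨τ, u'⟩ hp
    obtain ⟨h1, h2⟩ := Finset.mem_product.mp hp
    have hu' : u' ∉ T := Finset.mem_compl.mp h2
    have hτ : act τ S ⊆ F := (Finset.mem_filter.mp h1).2
    refine Finset.mem_filter.mpr ⟨Finset.mem_univ _, ?_⟩
    intro e he
    obtain ⟨e', he', rfl⟩ := mem_act.mp he
    have hsub : ∀ x ∈ e', x ∈ T := fun x hx =>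
      Finset.mem_union_left _ (mem_supp.mpr ⟨e', he', hx⟩)
    have : Sym2.map (⇑(τ * Equiv.swap u u')) e' = Sym2.map τ e' :=
      map_congr_mem fun x hx => hcomp τ u' x hu' (hsub x hx)
    show Sym2.map (⇑(τ * Equiv.swap u u')) e' ∈ F
    rw [this]
    exact hτ (mem_act.mpr ⟨e', del_subset S u he', rfl⟩)
  have hcard : (A ×ˢ Tᶜ).card = cnt F S * (Fintype.card X - T.card) := by
    rw [Finset.card_product, Finset.card_compl]
    rfl
  rw [← hcard, Finset.card_eq_sum_card_fiberwise hmaps]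
  refine Finset.sum_le_sum fun τ' hτ' => ?_
  refine Finset.card_le_card_of_injOn (fun p => τ' p.2) ?_ ?_
  · rintro ⟨τ, u'⟩ hp
    simp only [Finset.coe_filter, Set.mem_ofPred_eq, Finset.mem_product] at hp
    obtain ⟨⟨h1, h2⟩, h3⟩ := hp
    have hu' : u' ∉ T := Finset.mem_compl.mp h2
    have hτ : act τ S ⊆ F := (Finset.mem_filter.mp h1).2
    have h4 : τ * Equiv.swap u u' = τ' := h3
    simp only [Finset.mem_coe]
    refine Finset.mem_filter.mpr ⟨Finset.mem_univ _, ?_⟩
    intro y' hy'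
    obtain ⟨y, hy, rfl⟩ := Finset.mem_image.mp hy'
    have hyT : y ∈ T := Finset.mem_union_right _ hy
    have h5 : τ' u' = τ u := by
      rw [← h4, Equiv.Perm.mul_apply, Equiv.swap_apply_right]
    have h6 : τ' y = τ y := by rw [← h4]; exact hcomp τ u' y hu' hyT
    rw [h5, h6]
    have h7 : s(u, y) ∈ S := (Finset.mem_filter.mp hy).2
    exact hτ (mem_act.mpr ⟨_, h7, rfl⟩)
  · rintro ⟨τ₁, u₁⟩ h₁ ⟨τ₂, u₂⟩ h₂ h
    simp only [Finset.coe_filter, Set.mem_ofPred_eq, Finset.mem_product] at h₁ h₂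
    have h3 : u₁ = u₂ := τ'.injective h
    subst h3
    have h4 : τ₁ * Equiv.swap u u₁ = τ₂ * Equiv.swap u u₁ := by
      have a1 : τ₁ * Equiv.swap u u₁ = τ' := h₁.2
      have a2 : τ₂ * Equiv.swap u u₁ = τ' := h₂.2
      rw [a1, a2]
    rw [mul_right_cancel h4]

/-- The effect of a permutation on stars. -/
lemma star_act (σ : Equiv.Perm X) (Z : Finset (Sym2 X)) (u : X) :
    star (act σ Z) (σ u) = act σ (star Z u) := by
  ext e
  simp only [star, mem_filter, mem_act]
  constructor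
  · rintro ⟨⟨e', he', rfl⟩, h⟩
    refine ⟨e', ⟨he', ?_⟩, rfl⟩
    obtain ⟨a, ha, hb⟩ := Sym2.mem_map.mp h
    rwa [← σ.injective hb]
  · rintro ⟨e', ⟨he', h⟩, rfl⟩
    exact ⟨⟨e', he', rfl⟩, Sym2.mem_map.mpr ⟨u, h, rfl⟩⟩

lemma card_star_act (σ : Equiv.Perm X) (Z : Finset (Sym2 X)) (u : X) :
    (star (act σ Z) u).card = (star Z (σ⁻¹ u)).card := by
  have := star_act σ Z (σ⁻¹ u)
  have h2 : σ (σ⁻¹ u) = u := by simp
  rw [h2] at this
  rw [this, card_act]

end

end Vale.Agent.P064L
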